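import Vale.Agent.P210.G.Defs

/-! P210 G/Cmp: comparison of distances (helper names end with _Cmp). Induction on `Joined`: `Joined Ω σ' x y a → ∃ b ≤ c * a, Joined Ω σ x y b`; along an arc both integrands are continuous on `Icc 0 1`
(`ContDiff.continuous_deriv`, `ContinuousOn.intervalIntegrable_of_Icc`, `intervalIntegral.integral_mono_on`). `ENNReal.mul_iInf_of_ne`. `Ω` is an arbitrary set. -/

namespace Vale.Agent.P210

open Set Filter Topology Metric MeasureTheory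
open scoped ENNReal

noncomputable section

variable {n : ℕ} {Ω : Set (E n)} {σ σ' : E n → E n → ℝ} {c : ℝ}

theorem arc_int_Cmp (h1 : ContinuousOn (fun p : E n × E n => σ p.1 p.2) (Ω ×ˢ univ))
    {γ : ℝ → E n} (hγ : ContDiff ℝ 1 γ) (hm : MapsTo γ (Icc 0 1) Ω) :
    IntervalIntegrable (fun t => σ (γ t) (deriv γ t)) volume 0 1 := by
  have h2 : Continuous fun t => (γ t, deriv γ t) :=
    hγ.continuous.prodMk (hγ.continuous_deriv le_rfl)
  have h3 : ContinuousOn (fun t => σ (γ t) (deriv γ t)) (Icc 0 1) :=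
    ContinuousOn.comp (g := fun p : E n × E n => σ p.1 p.2) (f := fun t => (γ t, deriv γ t)) h1
      h2.continuousOn fun t ht => ⟨hm ht, mem_univ _⟩
  exact h3.intervalIntegrable_of_Icc zero_le_one

theorem joined_Cmp (h1 : ContinuousOn (fun p : E n × E n => σ p.1 p.2) (Ω ×ˢ univ))
    (h2 : ContinuousOn (fun p : E n × E n => σ' p.1 p.2) (Ω ×ˢ univ))
    (h : ∀ x ∈ Ω, ∀ v, σ x v ≤ c * σ' x v) {x y : E n} {a : ℝ} (hj : Joined Ω σ' x y a) :
    ∃ b ≤ c * a, Joined Ω σ x y b := by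
  induction hj with
  | arc γ hγ hm =>
    refine ⟨_, ?_, .arc γ hγ hm⟩
    rw [← intervalIntegral.integral_const_mul]
    exact intervalIntegral.integral_mono_on zero_le_one (arc_int_Cmp h1 hγ hm)
      ((arc_int_Cmp h2 hγ hm).const_mul c) fun t ht => h _ (hm ht) _
  | trans _ _ ih ih' =>
    obtain ⟨b, hb, hj⟩ := ih
    obtain ⟨b', hb', hj'⟩ := ih'
    exact ⟨b + b', by linarith, .trans hj hj'⟩

theorem rdist_le (h1 : ContinuousOn (fun p : E n × E n => σ p.1 p.2) (Ω ×ˢ univ))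
    (h2 : ContinuousOn (fun p : E n × E n => σ' p.1 p.2) (Ω ×ˢ univ)) (hc : 0 < c)
    (h : ∀ x ∈ Ω, ∀ v, σ x v ≤ c * σ' x v) (x y : E n) :
    rdist Ω σ x y ≤ ENNReal.ofReal c * rdist Ω σ' x y := by
  have hc0 : ENNReal.ofReal c ≠ 0 := (ENNReal.ofReal_pos.2 hc).ne'
  rw [rdist, rdist, ENNReal.mul_iInf_of_ne hc0 ENNReal.ofReal_ne_top]
  refine le_iInf fun a => ?_
  rw [ENNReal.mul_iInf_of_ne hc0 ENNReal.ofReal_ne_top]
  refine le_iInf fun ha => ?_
  obtain ⟨b, hb, hj⟩ := joined_Cmp h1 h2 h ha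
  refine (iInf₂_le b hj).trans ?_
  rw [← ENNReal.ofReal_mul hc.le]
  exact ENNReal.ofReal_le_ofReal hb

theorem Complete.of_le (hc : 0 < c) (h1 : ∀ x y, rdist Ω σ x y ≤ ENNReal.ofReal c * rdist Ω σ' x y)
    (h2 : ∀ x y, rdist Ω σ' x y ≤ ENNReal.ofReal c * rdist Ω σ x y) (h : Complete Ω σ) :
    Complete Ω σ' := by
  intro u hu hcau
  obtain ⟨p, hp, ht⟩ := h u hu fun ε hε => by
    obtain ⟨N, hN⟩ := hcau (ε / ENNReal.ofReal c) (ENNReal.div_pos hε.ne' ENNReal.ofReal_ne_top)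
    exact ⟨N, fun i hi j hj => (h1 _ _).trans_lt (ENNReal.mul_lt_of_lt_div' (hN i hi j hj))⟩
  refine ⟨p, hp, ?_⟩
  have h3 := ENNReal.Tendsto.const_mul (a := ENNReal.ofReal c) ht (Or.inr ENNReal.ofReal_ne_top)
  rw [mul_zero] at h3
  exact tendsto_of_tendsto_of_tendsto_of_le_of_le tendsto_const_nhds h3 (fun _ => bot_le)
    fun i => h2 _ _

theorem WidthLe.of_le {ρ ρ' : E n → E n → ℝ≥0∞} (hc : 0 < c)
    (h1 : ∀ x y, ρ' x y ≤ ENNReal.ofReal c * ρ x y) {d : ℕ} {C : ℝ} (h : WidthLe Ω ρ d C) :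
    WidthLe Ω ρ' d (c * C) := by
  obtain ⟨V, K, φ, a1, a2, a3, a4, a5⟩ := h
  refine ⟨V, K, φ, a1, a2, a3, a4, fun x hx y hy hxy => (h1 x y).trans ?_⟩
  rw [ENNReal.ofReal_mul hc.le]
  exact mul_le_mul' le_rfl (a5 x hx y hy hxy)

theorem speed_cm (f : E n → ℝ) (g : E n → Matrix (Fin n) (Fin n) ℝ) (x v : E n) :
    speed (cm f g) x v = Real.exp (f x) * speed g x v := by
  have h1 : ∑ i, ∑ j, cm f g x i j * v i * v j
      = Real.exp (f x) ^ 2 * ∑ i, ∑ j, g x i j * v i * v j := by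
    rw [Finset.mul_sum]
    refine Finset.sum_congr rfl fun i _ => ?_
    rw [Finset.mul_sum]
    refine Finset.sum_congr rfl fun j _ => ?_
    rw [cm, Matrix.smul_apply, smul_eq_mul, two_mul, Real.exp_add]
    ring
  rw [speed, speed, h1, Real.sqrt_mul (sq_nonneg _), Real.sqrt_sq (Real.exp_pos _).le]

theorem speed_cont {g : E n → Matrix (Fin n) (Fin n) ℝ}
    (hg : ∀ i j, ContinuousOn (fun y => g y i j) Ω) :
    ContinuousOn (fun p : E n × E n => speed g p.1 p.2) (Ω ×ˢ univ) := by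
  refine ContinuousOn.sqrt (continuousOn_finsetSum _ fun i _ =>
    continuousOn_finsetSum _ fun j _ => ?_)
  have h1 : ContinuousOn (fun p : E n × E n => g p.1 i j) (Ω ×ˢ univ) :=
    ContinuousOn.comp (g := fun y => g y i j) (f := Prod.fst) (hg i j) continuousOn_fst
      fun p hp => hp.1
  have h2 : ∀ l, Continuous fun p : E n × E n => p.2 l := fun l => by fun_prop
  exact (h1.mul (h2 i).continuousOn).mul (h2 j).continuousOn

theorem sp_cont {w : E n → ℝ} (hw : ContinuousOn w Ω) :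
    ContinuousOn (fun p : E n × E n => sp w p.1 p.2) (Ω ×ˢ univ) := by
  have h1 : ContinuousOn (fun p : E n × E n => w p.1) (Ω ×ˢ univ) :=
    ContinuousOn.comp (g := w) (f := Prod.fst) hw continuousOn_fst fun p hp => hp.1
  exact h1.mul continuous_snd.norm.continuousOn

end

end Vale.Agent.P210
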