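import Vale.Agent.P210.G.Defs

/-! P210 G/ConfB: the algebra of the conformal formula (helper names end with _ConfB). First prove the contractions, as separate lemmas: `∑ k, T k i k = n * a i`, `∑ k, T k k l = n * a l`, `∑ k, dT j k i k = n * H j i`
(here `∑ k, (dg j i k * u k + g i k * ∑ l, dh j k l * a l) = 0`, because `dg h + g dh = 0`), `∑ i, ∑ j, h i j * T l i j = (2 - n) * u l`, `∑ i, ∑ j, h i j * dg k i j = 2 * ∑ p, Γ p k p`, `∑ i, ∑ j, h i j * g i j = n`.
It may be easier to pass to matrices: `Γ · m ·` is a matrix `G m`, `dg m = (G m)ᵀ g + g (G m)`, `dh m = -(G m h + h (G m)ᵀ)`. `Finset.sum_comm`, `Matrix.mul_apply`, `sum_dl_Scal`. -/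

namespace Vale.Agent.P210

open Set Filter Topology Metric MeasureTheory
open scoped ENNReal

noncomputable section

variable {n : ℕ}

/-- The data of the identity. -/
structure D_ConfB (g h : Matrix (Fin n) (Fin n) ℝ) (a u : Fin n → ℝ) : Prop where
  gs : ∀ i j, g i j = g j i
  hs : ∀ i j, h i j = h j i
  gh : ∀ i k, ∑ j, g i j * h j k = dl_Scal i k
  hg : ∀ i k, ∑ j, h i j * g j k = dl_Scal i k
  hu : ∀ k, u k = ∑ l, h k l * a l

section

variable {g h : Matrix (Fin n) (Fin n) ℝ} {a u : Fin n → ℝ}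

theorem dl_ConfB (i : Fin n) (f : Fin n → ℝ) : ∑ l, dl_Scal l i * f l = f i := by
  simp [dl_Scal]

theorem one_ConfB (x : ℝ) : ∑ k : Fin n, dl_Scal k k * x = n * x := by
  simp [dl_Scal]

theorem gh_ConfB (d : D_ConfB g h a u) (i : Fin n) (w : Fin n → ℝ) :
    ∑ k, g i k * ∑ p, h k p * w p = w i := by
  calc ∑ k, g i k * ∑ p, h k p * w p = ∑ p, (∑ k, g i k * h k p) * w p := by
        simp only [Finset.mul_sum, Finset.sum_mul]
        rw [Finset.sum_comm]
        exact Finset.sum_congr rfl fun _ _ => Finset.sum_congr rfl fun _ _ => by ring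
    _ = w i := by simp only [d.gh, sum_dl_Scal]

theorem gu_ConfB (d : D_ConfB g h a u) (i : Fin n) : ∑ k, g i k * u k = a i := by
  simp only [d.hu]
  exact gh_ConfB d i a

theorem con1_ConfB (d : D_ConfB g h a u) (w : Fin n → Fin n → ℝ) :
    ∑ i, ∑ j, h i j * ∑ k, g i k * w k j = ∑ j, w j j := by
  rw [Finset.sum_comm]
  refine Finset.sum_congr rfl fun j _ => ?_
  calc ∑ i, h i j * ∑ k, g i k * w k j = ∑ k, (∑ i, h j i * g i k) * w k j := by
        simp only [Finset.mul_sum, Finset.sum_mul]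
        rw [Finset.sum_comm]
        exact Finset.sum_congr rfl fun _ _ => Finset.sum_congr rfl fun i _ => by
          rw [d.hs i j]
          ring
    _ = w j j := by simp only [d.hg, sum_dl_Scal]

theorem con2_ConfB (d : D_ConfB g h a u) (v : Fin n → ℝ) :
    ∑ i, ∑ j, h i j * (v j * a i) = ∑ j, v j * u j := by
  rw [Finset.sum_comm]
  refine Finset.sum_congr rfl fun j _ => ?_
  rw [d.hu, Finset.mul_sum]
  exact Finset.sum_congr rfl fun i _ => by
    rw [d.hs i j]
    ring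

theorem swap_ConfB (d : D_ConfB g h a u) (w : Fin n → Fin n → ℝ) :
    ∑ i, ∑ j, h i j * w i j = ∑ i, ∑ j, h i j * w j i := by
  rw [Finset.sum_comm]
  exact Finset.sum_congr rfl fun i _ => Finset.sum_congr rfl fun j _ => by rw [d.hs j i]

theorem out_ConfB (h : Matrix (Fin n) (Fin n) ℝ) (v : Fin n → ℝ) (w : Fin n → Fin n → Fin n → ℝ) :
    ∑ i, ∑ j, h i j * ∑ k, v k * w k i j = ∑ k, v k * ∑ i, ∑ j, h i j * w k i j := by
  calc ∑ i, ∑ j, h i j * ∑ k, v k * w k i j = ∑ i, ∑ k, ∑ j, v k * (h i j * w k i j) := by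
        refine Finset.sum_congr rfl fun i _ => ?_
        rw [Finset.sum_comm]
        refine Finset.sum_congr rfl fun j _ => ?_
        rw [Finset.mul_sum]
        exact Finset.sum_congr rfl fun _ _ => by ring
    _ = _ := by
        rw [Finset.sum_comm]
        simp only [Finset.mul_sum]

theorem add_ConfB (h : Matrix (Fin n) (Fin n) ℝ) (x y : Fin n → Fin n → ℝ) :
    ∑ i, ∑ j, h i j * (x i j + y i j) = ∑ i, ∑ j, h i j * x i j + ∑ i, ∑ j, h i j * y i j := by
  simp only [mul_add, Finset.sum_add_distrib]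

theorem sub_ConfB (h : Matrix (Fin n) (Fin n) ℝ) (x y : Fin n → Fin n → ℝ) :
    ∑ i, ∑ j, h i j * (x i j - y i j) = ∑ i, ∑ j, h i j * x i j - ∑ i, ∑ j, h i j * y i j := by
  simp only [mul_sub, Finset.sum_sub_distrib]

theorem tr_ConfB (d : D_ConfB g h a u) : ∑ i, ∑ j, h i j * g i j = n := by
  calc ∑ i, ∑ j, h i j * g i j = ∑ i : Fin n, dl_Scal i i * 1 := by
        refine Finset.sum_congr rfl fun i _ => ?_
        rw [mul_one, ← d.hg]
        exact Finset.sum_congr rfl fun j _ => by rw [d.gs i j]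
    _ = n := by rw [one_ConfB, mul_one]

variable {T : Fin n → Fin n → Fin n → ℝ}

theorem hT_ConfB (d : D_ConfB g h a u)
    (hT : ∀ k i j, T k i j = dl_Scal j k * a i + dl_Scal i k * a j - g i j * u k) (l : Fin n) :
    ∑ i, ∑ j, h i j * T l i j = (2 - n) * u l := by
  have e1 : ∑ i, ∑ j, h i j * (dl_Scal j l * a i) = u l := by
    rw [con2_ConfB d (fun j => dl_Scal j l), dl_ConfB]
  have e2 : ∑ i, ∑ j, h i j * (dl_Scal i l * a j) = u l := by
    rw [swap_ConfB d, e1]
  have e3 : ∑ i, ∑ j, h i j * (g i j * u l) = n * u l := by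
    rw [← tr_ConfB d]
    simp only [Finset.sum_mul, mul_assoc]
  simp only [hT, mul_add, mul_sub, Finset.sum_add_distrib, Finset.sum_sub_distrib]
  rw [e1, e2, e3]
  ring

theorem Tkk_ConfB (d : D_ConfB g h a u)
    (hT : ∀ k i j, T k i j = dl_Scal j k * a i + dl_Scal i k * a j - g i j * u k) (l : Fin n) :
    ∑ k, T k k l = n * a l := by
  have e3 : ∑ k, g k l * u k = a l := by
    rw [← gu_ConfB d l]
    exact Finset.sum_congr rfl fun k _ => by rw [d.gs k l]
  simp only [hT, Finset.sum_add_distrib, Finset.sum_sub_distrib]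
  rw [sum_dl_Scal, one_ConfB, e3]
  ring

theorem ST_ConfB (d : D_ConfB g h a u)
    (hT : ∀ k i j, T k i j = dl_Scal j k * a i + dl_Scal i k * a j - g i j * u k)
    (S : Fin n → Fin n → Fin n → ℝ) (hS : ∀ k i j, S k i j = S k j i) :
    ∑ i, ∑ j, h i j * ∑ k, ∑ l, S k j l * T l i k = ∑ k, a k * ∑ i, ∑ j, h i j * S k i j := by
  have e0 : ∀ i j, ∑ k, ∑ l, S k j l * T l i k =
      (∑ k, S k j k) * a i + ∑ k, a k * S k i j - ∑ k, g i k * ∑ l, S k j l * u l := by
    intro i j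
    rw [Finset.sum_mul, ← Finset.sum_add_distrib, ← Finset.sum_sub_distrib]
    refine Finset.sum_congr rfl fun k _ => ?_
    calc ∑ l, S k j l * T l i k = ∑ l, (dl_Scal k l * (S k j l * a i) +
          dl_Scal i l * (a k * S k l j) - g i k * (S k j l * u l)) :=
          Finset.sum_congr rfl fun l _ => by
            rw [hT, hS k l j]
            ring
      _ = _ := by
          rw [Finset.sum_sub_distrib, Finset.sum_add_distrib, sum_dl_Scal, sum_dl_Scal,
            Finset.mul_sum]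
  have e1 : ∑ j, (∑ k, S k j k) * u j = ∑ j, ∑ l, S j j l * u l := by
    simp only [Finset.sum_mul]
    rw [Finset.sum_comm]
    exact Finset.sum_congr rfl fun k _ => Finset.sum_congr rfl fun j _ => by rw [hS k j k]
  simp only [e0, mul_add, mul_sub, Finset.sum_add_distrib, Finset.sum_sub_distrib]
  rw [con2_ConfB d (fun j => ∑ k, S k j k), con1_ConfB d (fun k j => ∑ l, S k j l * u l), e1,
    out_ConfB]
  ring

variable {Γ : Fin n → Fin n → Fin n → ℝ} {H : Fin n → Fin n → ℝ}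

theorem du_ConfB (d : D_ConfB g h a u) (m k : Fin n) :
    ∑ l, (-(∑ p, (Γ k m p * h p l + Γ l m p * h k p)) * a l + h k l * H m l) =
      ∑ p, h k p * (H m p - ∑ l, Γ l m p * a l) - ∑ p, Γ k m p * u p := by
  simp only [d.hu, mul_sub, neg_mul, Finset.mul_sum, Finset.sum_mul, add_mul,
    Finset.sum_add_distrib, Finset.sum_sub_distrib, Finset.sum_neg_distrib]
  have e1 : ∑ l, ∑ p, Γ k m p * h p l * a l = ∑ p, ∑ l, Γ k m p * (h p l * a l) := by
    rw [Finset.sum_comm]
    simp only [mul_assoc]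
  have e2 : ∑ l, ∑ p, Γ l m p * h k p * a l = ∑ p, ∑ l, h k p * (Γ l m p * a l) := by
    rw [Finset.sum_comm]
    exact Finset.sum_congr rfl fun _ _ => Finset.sum_congr rfl fun _ _ => by ring
  rw [e1, e2]
  ring

variable {dT : Fin n → Fin n → Fin n → Fin n → ℝ}

theorem B_ConfB (d : D_ConfB g h a u)
    (hd : ∀ m k i j, dT m k i j = dl_Scal j k * H m i + dl_Scal i k * H m j -
      ((∑ p, (Γ p m i * g p j + Γ p m j * g i p)) * u k +
        g i j * (∑ p, h k p * (H m p - ∑ l, Γ l m p * a l) - ∑ p, Γ k m p * u p))) (i j : Fin n) :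
    ∑ k, dT j k i k = n * H j i := by
  have e1 : ∑ k, (∑ p, (Γ p j i * g p k + Γ p j k * g i p)) * u k =
      ∑ p, Γ p j i * a p + ∑ k, g i k * ∑ p, Γ k j p * u p := by
    simp only [← gu_ConfB d, Finset.mul_sum, Finset.sum_mul, add_mul, Finset.sum_add_distrib]
    rw [Finset.sum_comm, Finset.sum_comm (f := fun k p => Γ p j k * g i p * u k)]
    congr 1
    · simp only [mul_assoc]
    · exact Finset.sum_congr rfl fun _ _ => Finset.sum_congr rfl fun _ _ => by ring
  simp only [hd, mul_sub (g i _), Finset.sum_add_distrib, Finset.sum_sub_distrib]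
  rw [one_ConfB, sum_dl_Scal, gh_ConfB d]
  simp only [Finset.sum_add_distrib] at e1
  rw [e1]
  ring

theorem A_ConfB (d : D_ConfB g h a u) (hΓ : ∀ k i j, Γ k i j = Γ k j i)
    (hd : ∀ m k i j, dT m k i j = dl_Scal j k * H m i + dl_Scal i k * H m j -
      ((∑ p, (Γ p m i * g p j + Γ p m j * g i p)) * u k +
        g i j * (∑ p, h k p * (H m p - ∑ l, Γ l m p * a l) - ∑ p, Γ k m p * u p))) :
    ∑ i, ∑ j, h i j * ∑ k, dT k k i j = 2 * ∑ i, ∑ j, h i j * H i j -
      n * ∑ i, ∑ j, h i j * (H i j - ∑ l, Γ l i j * a l) + (n - 2) * ∑ l, (∑ k, Γ k k l) * u l := by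
  have e1 : ∀ k, ∑ i, ∑ j, h i j * ∑ p, (Γ p k i * g p j + Γ p k j * g i p) = 2 * ∑ p, Γ p p k := by
    intro k
    have f1 : ∑ i, ∑ j, h i j * ∑ p, Γ p k j * g i p = ∑ p, Γ p p k := by
      simp only [mul_comm (Γ _ _ _)]
      rw [con1_ConfB d (fun p j => Γ p k j)]
      exact Finset.sum_congr rfl fun p _ => hΓ _ _ _
    have f2 : ∑ i, ∑ j, h i j * ∑ p, Γ p k i * g p j = ∑ p, Γ p p k := by
      rw [swap_ConfB d, ← f1]
      exact Finset.sum_congr rfl fun i _ => Finset.sum_congr rfl fun j _ => by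
        simp only [d.gs _ i]
    simp only [Finset.sum_add_distrib, mul_add]
    rw [f1, f2]
    ring
  have e2 : ∀ i j, ∑ k, dT k k i j = H j i + H i j -
      (∑ k, u k * ∑ p, (Γ p k i * g p j + Γ p k j * g i p) +
        g i j * (∑ k, ∑ p, h k p * (H k p - ∑ l, Γ l k p * a l) - ∑ l, (∑ k, Γ k k l) * u l)) := by
    intro i j
    have f1 : ∑ l, (∑ k, Γ k k l) * u l = ∑ k, ∑ p, Γ k k p * u p := by
      simp only [Finset.sum_mul]
      exact Finset.sum_comm
    rw [f1, ← Finset.sum_sub_distrib, Finset.mul_sum, ← Finset.sum_add_distrib,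
      ← sum_dl_Scal j fun k => H k i, ← sum_dl_Scal i fun k => H k j, ← Finset.sum_add_distrib,
      ← Finset.sum_sub_distrib]
    exact Finset.sum_congr rfl fun k _ => by
      rw [hd]
      ring
  have e3 : ∀ x : ℝ, ∑ i, ∑ j, h i j * (g i j * x) = n * x := by
    intro x
    rw [← tr_ConfB d]
    simp only [Finset.sum_mul, mul_assoc]
  have e4 : ∑ k, u k * (2 * ∑ p, Γ p p k) = 2 * ∑ l, (∑ k, Γ k k l) * u l := by
    rw [Finset.mul_sum]
    exact Finset.sum_congr rfl fun _ _ => by ring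
  simp only [e2]
  rw [sub_ConfB, add_ConfB, add_ConfB, e3, out_ConfB, ← swap_ConfB d H]
  simp only [e1]
  rw [e4]
  ring

end

theorem conf_alg (g h : Matrix (Fin n) (Fin n) ℝ) (hg : g.IsSymm) (hh : h.IsSymm) (h1 : g * h = 1)
    (Γ : Fin n → Fin n → Fin n → ℝ) (hΓ : ∀ k i j, Γ k i j = Γ k j i) (a : Fin n → ℝ)
    (H : Fin n → Fin n → ℝ) (hH : ∀ i j, H i j = H j i) (T : Fin n → Fin n → Fin n → ℝ)
    (hT : ∀ k i j, T k i j = dl_Scal j k * a i + dl_Scal i k * a j - g i j * ∑ l, h k l * a l)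
    (dT : Fin n → Fin n → Fin n → Fin n → ℝ)
    (hd : ∀ m k i j, dT m k i j = dl_Scal j k * H m i + dl_Scal i k * H m j -
      ((∑ p, (Γ p m i * g p j + Γ p m j * g i p)) * ∑ l, h k l * a l +
        g i j * ∑ l, (-(∑ p, (Γ k m p * h p l + Γ l m p * h k p)) * a l + h k l * H m l))) :
    ∑ i, ∑ j, h i j * ∑ k, (dT k k i j - dT j k i k +
      ∑ l, ((Γ k k l + T k k l) * (Γ l i j + T l i j) - (Γ k j l + T k j l) * (Γ l i k + T l i k) -
        (Γ k k l * Γ l i j - Γ k j l * Γ l i k))) =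
      -((n : ℝ) - 1) * (2 * ∑ i, ∑ j, h i j * (H i j - ∑ k, Γ k i j * a k) +
        ((n : ℝ) - 2) * qf h a a) := by
  obtain ⟨u, hu⟩ : ∃ u : Fin n → ℝ, ∀ k, u k = ∑ l, h k l * a l := ⟨_, fun _ => rfl⟩
  have h2 : h * g = 1 := mul_eq_one_comm.mp h1
  have d : D_ConfB g h a u :=
    ⟨fun i j => (hg.apply i j).symm, fun i j => (hh.apply i j).symm,
      fun i k => by rw [← Matrix.mul_apply, h1, Matrix.one_apply, dl_Scal],
      fun i k => by rw [← Matrix.mul_apply, h2, Matrix.one_apply, dl_Scal], hu⟩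
  simp only [← hu] at hT hd
  simp only [du_ConfB d] at hd
  have hTs : ∀ k i j, T k i j = T k j i := fun k i j => by
    rw [hT, hT, d.gs i j]
    ring
  have eQ : qf h a a = ∑ l, a l * u l := by
    rw [← con2_ConfB d a, qf]
    exact Finset.sum_congr rfl fun _ _ => Finset.sum_congr rfl fun _ _ => by ring
  have eB : ∑ i, ∑ j, h i j * ∑ k, dT j k i k = n * ∑ i, ∑ j, h i j * H i j := by
    simp only [B_ConfB d hd, Finset.mul_sum]
    exact Finset.sum_congr rfl fun i _ => Finset.sum_congr rfl fun j _ => by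
      rw [hH j i]
      ring
  have eC : ∀ S W : Fin n → Fin n → Fin n → ℝ, ∑ i, ∑ j, h i j * ∑ k, ∑ l, S k k l * W l i j =
      ∑ l, (∑ k, S k k l) * ∑ i, ∑ j, h i j * W l i j := by
    intro S W
    rw [← out_ConfB]
    refine Finset.sum_congr rfl fun i _ => Finset.sum_congr rfl fun j _ => ?_
    rw [Finset.sum_comm]
    simp only [Finset.sum_mul]
  have e5 : ∑ i, ∑ j, h i j * ∑ k, ∑ l, T k j l * Γ l i k =
      ∑ i, ∑ j, h i j * ∑ k, ∑ l, Γ k j l * T l i k := by
    rw [swap_ConfB d]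
    refine Finset.sum_congr rfl fun i _ => Finset.sum_congr rfl fun j _ => ?_
    rw [Finset.sum_comm]
    simp only [mul_comm (T _ _ _)]
  have eG : ∑ i, ∑ j, h i j * (H i j - ∑ k, Γ k i j * a k) =
      ∑ i, ∑ j, h i j * H i j - ∑ k, a k * ∑ i, ∑ j, h i j * Γ k i j := by
    rw [← out_ConfB]
    simp only [mul_sub, Finset.sum_sub_distrib, mul_comm (a _)]
  have e0 : ∀ i j, ∑ k, (dT k k i j - dT j k i k +
      ∑ l, ((Γ k k l + T k k l) * (Γ l i j + T l i j) - (Γ k j l + T k j l) * (Γ l i k + T l i k) -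
        (Γ k k l * Γ l i j - Γ k j l * Γ l i k))) =
      ∑ k, dT k k i j - ∑ k, dT j k i k + ∑ k, ∑ l, Γ k k l * T l i j +
        ∑ k, ∑ l, T k k l * Γ l i j + ∑ k, ∑ l, T k k l * T l i j - ∑ k, ∑ l, Γ k j l * T l i k -
        ∑ k, ∑ l, T k j l * Γ l i k - ∑ k, ∑ l, T k j l * T l i k := by
    intro i j
    simp only [← Finset.sum_add_distrib, ← Finset.sum_sub_distrib]
    refine Finset.sum_congr rfl fun k _ => ?_
    have : ∑ l, ((Γ k k l + T k k l) * (Γ l i j + T l i j) -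
        (Γ k j l + T k j l) * (Γ l i k + T l i k) - (Γ k k l * Γ l i j - Γ k j l * Γ l i k)) =
        ∑ l, (Γ k k l * T l i j + T k k l * Γ l i j + T k k l * T l i j - Γ k j l * T l i k -
          T k j l * Γ l i k - T k j l * T l i k) := Finset.sum_congr rfl fun l _ => by ring
    rw [this]
    simp only [Finset.sum_add_distrib, Finset.sum_sub_distrib]
    ring
  have f1 : ∑ l, (∑ k, Γ k k l) * ((2 - n) * u l) = (2 - n) * ∑ l, (∑ k, Γ k k l) * u l := by
    rw [Finset.mul_sum]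
    exact Finset.sum_congr rfl fun _ _ => by ring
  have f2 : ∑ l, n * a l * ∑ i, ∑ j, h i j * Γ l i j = n * ∑ l, a l * ∑ i, ∑ j, h i j * Γ l i j := by
    rw [Finset.mul_sum]
    exact Finset.sum_congr rfl fun _ _ => by ring
  have f3 : ∑ l, n * a l * ((2 - n) * u l) = n * (2 - n) * ∑ l, a l * u l := by
    rw [Finset.mul_sum]
    exact Finset.sum_congr rfl fun _ _ => by ring
  have f4 : ∑ l, a l * ((2 - n) * u l) = (2 - n) * ∑ l, a l * u l := by
    rw [Finset.mul_sum]
    exact Finset.sum_congr rfl fun _ _ => by ring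
  simp only [e0]
  rw [eG, sub_ConfB, sub_ConfB, sub_ConfB, add_ConfB, add_ConfB, add_ConfB, sub_ConfB]
  rw [A_ConfB d hΓ hd, eB, eC, eC, eC, e5, ST_ConfB d hT Γ hΓ, ST_ConfB d hT T hTs, eG, eQ]
  simp only [hT_ConfB d hT, Tkk_ConfB d hT]
  rw [f1, f2, f3, f4]
  ring

end

end Vale.Agent.P210
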