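import Vale.Agent.P210.G.ConfA
import Vale.Agent.P210.G.ConfB

/-! P210 G/ConfC: the conformal formula for the scalar curvature (helper names end with _ConfC). `Sm.chr_cm` holds near `x` (`Sm.ev`, `ContDiffAt.eventually`), so `pd m (chr (cm f g) k i j) x = pd m (chr g k i j) x + dT m k i j`
by the product rule, `Sm.pd_g`, `Sm.pd_ginv`; `H m i = pd m (pd i f) x` is symmetric (`P098.D2_apply`, `P098.D2_symm`, model `dchr_Scal`). Then `Sm.inv_cm` and `conf_alg` with `h = (g x)⁻¹`. -/

namespace Vale.Agent.P210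

open Set Filter Topology Metric MeasureTheory
open scoped ENNReal

noncomputable section

variable {n : ℕ} {g : E n → Matrix (Fin n) (Fin n) ℝ} {f : E n → ℝ} {x : E n}

theorem dchr_ConfC (hg : Sm g x) (hf : ContDiffAt ℝ 2 f x) (m k i j : Fin n) :
    pd m (chr (cm f g) k i j) x = pd m (chr g k i j) x +
      (dl_Scal j k * pd m (pd i f) x + dl_Scal i k * pd m (pd j f) x -
        (pd m (fun y => g y i j) x * ∑ l, (g x)⁻¹ k l * pd l f x +
          g x i j * ∑ l, (pd m (fun y => (g y)⁻¹ k l) x * pd l f x +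
            (g x)⁻¹ k l * pd m (pd l f) x))) := by
  have hev : chr (cm f g) k i j =ᶠ[𝓝 x] fun y => chr g k i j y +
      (dl_Scal j k * pd i f y + dl_Scal i k * pd j f y - g y i j * ∑ l, (g y)⁻¹ k l * pd l f y) := by
    filter_upwards [hf.eventually (by simp), hg.ev] with y hy hy'
    exact hy'.chr_cm (hy.differentiableAt (by simp)) k i j
  have hd : DifferentiableAt ℝ (fderiv ℝ f) x :=
    (hf.fderiv_right (m := 1) (by norm_num)).differentiableAt (by simp)
  have hp : ∀ a : Fin n, HasFDerivAt (pd a f) (fderiv ℝ (pd a f) x) x := fun a =>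
    (hd.clm_apply (differentiableAt_const (EuclideanSpace.single a (1 : ℝ)))).hasFDerivAt
  have h1 := ((hg.chr_sm k i j).differentiableAt (by simp)).hasFDerivAt.fun_add
    ((((hp i).const_mul (dl_Scal j k)).fun_add ((hp j).const_mul (dl_Scal i k))).fun_sub
      (((hg.sm i j).differentiableAt (by simp)).hasFDerivAt.fun_mul (HasFDerivAt.fun_sum
        fun l (_ : l ∈ Finset.univ) =>
          ((hg.inv_sm k l).differentiableAt (by simp)).hasFDerivAt.fun_mul (hp l))))
  rw [pd, hev.fderiv_eq, h1.fderiv]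
  simp only [add_apply, sub_apply, smul_apply, sum_apply, smul_eq_mul]
  unfold pd
  rw [add_comm (g x i j * _), mul_comm (∑ l, _)]
  congr 4
  exact Finset.sum_congr rfl fun l _ => by ring

theorem scal_cm (hg : Sm g x) (hf : ContDiffAt ℝ 2 f x) :
    scal (cm f g) x = Real.exp (-2 * f x) * (scal g x - ((n : ℝ) - 1) *
      (2 * lapg g f x + ((n : ℝ) - 2) * qf (g x)⁻¹ (grad f x) (grad f x))) := by
  have hd : DifferentiableAt ℝ f x := hf.differentiableAt (by simp)
  have hs := hg.sy.self_of_nhds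
  have h := conf_alg (g x) (g x)⁻¹ hs hs.inv (Matrix.mul_nonsing_inv _ (Ne.isUnit hg.det))
    (fun k i j => chr g k i j x) hg.chr_symm (grad f x) (fun m i => pd m (pd i f) x)
    (fun i j => (P098.D2_apply hf _ _).symm.trans
      ((P098.D2_symm hf _ _).trans (P098.D2_apply hf _ _))) _ (fun _ _ _ => rfl) _
    fun _ _ _ _ => rfl
  rw [sub_eq_add_neg (scal g x), ← neg_mul]
  unfold lapg
  unfold grad at h ⊢
  rw [← h]
  unfold scal ric
  simp only [dchr_ConfC hg hf, hg.chr_cm hd, hg.pd_g, hg.pd_ginv, hg.inv_cm, Matrix.smul_apply,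
    smul_eq_mul]
  rw [← Finset.sum_add_distrib, Finset.mul_sum]
  refine Finset.sum_congr rfl fun i _ => ?_
  rw [← Finset.sum_add_distrib, Finset.mul_sum]
  refine Finset.sum_congr rfl fun j _ => ?_
  rw [← mul_add, mul_assoc, ← Finset.sum_add_distrib]
  congr 2
  refine Finset.sum_congr rfl fun k _ => ?_
  rw [Finset.sum_sub_distrib (f := fun l => _ - _)]
  ring

end

end Vale.Agent.P210
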