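import Vale.Agent.P210.Stmt

/-! P210 G/Stmt: conformal multiples. FROZEN. -/

namespace Vale.Agent.P210

/-- The conformal multiple `e^{2f} g` of the metric with coefficient matrix `g`. -/
noncomputable def cm {n : ℕ} (f : E n → ℝ) (g : E n → Matrix (Fin n) (Fin n) ℝ) (x : E n) :
    Matrix (Fin n) (Fin n) ℝ :=
  Real.exp (2 * f x) • g x

end Vale.Agent.P210
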