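import Vale.Agent.P210.Defs
import Vale.Agent.P210.Scal
import Vale.Agent.P210.G.Stmt

/-! P210 G/Defs: working definitions for a general background metric (owner helper28). FROZEN. -/

namespace Vale.Agent.P210

open Set Filter Topology Metric MeasureTheory
open scoped ENNReal

noncomputable section

variable {n : ℕ}

/-- The bilinear form of a matrix. -/
def qf (a : Matrix (Fin n) (Fin n) ℝ) (ξ η : Fin n → ℝ) : ℝ := ∑ i, ∑ j, a i j * ξ i * η j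

/-- The coordinate gradient. -/
def grad (f : E n → ℝ) (x : E n) : Fin n → ℝ := fun i => pd i f x

/-- The Laplace-Beltrami operator. -/
def lapg (g : E n → Matrix (Fin n) (Fin n) ℝ) (f : E n → ℝ) (x : E n) : ℝ :=
  ∑ i, ∑ j, (g x)⁻¹ i j * (pd i (pd j f) x - ∑ k, chr g k i j x * pd k f x)

/-- The metric is `C^3`, symmetric and invertible at `x`. -/
structure Sm (g : E n → Matrix (Fin n) (Fin n) ℝ) (x : E n) : Prop where
  sm : ∀ i j, ContDiffAt ℝ 3 (fun y => g y i j) x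
  sy : ∀ᶠ y in 𝓝 x, (g y).IsSymm
  det : (g x).det ≠ 0

/-- Uniform ellipticity. -/
structure Ell (L : ℝ) (a : Matrix (Fin n) (Fin n) ℝ) : Prop where
  sy : a.IsSymm
  lo : ∀ v : E n, ‖v‖ ≤ L * √(qf a v v)
  hi : ∀ v : E n, √(qf a v v) ≤ L * ‖v‖

/-- Intrinsic cutoff functions, with compact supports inside `D`. -/
structure Cuts (Ω : Set (E n)) (w : E n → ℝ) (D : Set (E n)) (η : ℕ → E n → ℝ) : Prop where
  supp : ∀ R, ∃ K, IsCompact K ∧ K ⊆ Ω ∧ ∀ y ∈ D, y ∉ K → η R y = 0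
  mem : ∀ R y, 0 ≤ η R y ∧ η R y ≤ 1
  lip : ∀ R, ∀ x ∈ Ω, ∀ ε : ℝ, 0 < ε → ∀ᶠ y in 𝓝 x, |η R y - η R x| ≤ (w x + ε) * dist y x
  one : ∀ x ∈ Ω, ∀ᶠ R in atTop, ∀ᶠ y in 𝓝 x, η R y = 1

/-- The truncation of `exp (f / 4) ^ 9`. -/
def FF (ε : ℝ) (f : E n → ℝ) (x : E n) : ℝ :=
  Real.exp (f x / 4) ^ 9 / (1 + ε * Real.exp (f x / 4) ^ 9)

/-- The truncation of `exp (f / 4)`. -/
def GG (ε : ℝ) (f : E n → ℝ) (x : E n) : ℝ :=
  Real.exp (f x / 4) / (1 + ε * Real.exp (f x / 4) ^ 9)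

/-- The energy inequality. -/
def Energy (Ω : Set (E n)) (f S : E n → ℝ) (c ε : ℝ) : Prop :=
  ∀ ψ : E n → ℝ, P098.Lip ψ → HasCompactSupport ψ → tsupport ψ ⊆ Ω →
    ∫ x, FF ε f x * ψ x ^ 2 ≤
      c * ((∫ x, GG ε f x * ‖fderiv ℝ ψ x‖ ^ 2) + ∫ x, GG ε f x * S x * ψ x ^ 2)

theorem speed_qf (g : E n → Matrix (Fin n) (Fin n) ℝ) (x v : E n) :
    speed g x v = √(qf (g x) v v) := rfl

end

end Vale.Agent.P210
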