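import Vale.Agent.P210.G.ConfA

/-! P210 G/Div: the Laplace-Beltrami operator in divergence form (helper names end with _Div). Jacobi formula: `pd i (det g) = det g * ∑ k l, (g x)⁻¹ k l * pd i (g · l k) = 2 det g * ∑ k, chr g k i k`
(models, copy or import: P227/MatDiff.lean `hasDerivWithinAt_det`, P264/U/Jac.lean `jac_fderiv_det`, P219/Det.lean; restrict to the line `t ↦ x + t • single i 1` if needed), so `pd i ρ = ρ ∑ k, chr g k i k` for `ρ = √det`.
With `Sm.pd_ginv` and `Sm.chr_symm`: `∑ i, pd i (ρ * h i j) = -ρ ∑ i m, chr g j i m * h i m`. -/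

namespace Vale.Agent.P210

open Set Filter Topology Metric MeasureTheory
open scoped ENNReal

noncomputable section

variable {n : ℕ} {g : E n → Matrix (Fin n) (Fin n) ℝ} {f : E n → ℝ} {x : E n}

theorem jac_Div {M : E n → Matrix (Fin n) (Fin n) ℝ}
    (hM : ∀ i j, DifferentiableAt ℝ (fun y => M y i j) x) (h0 : (M x).det ≠ 0) (v : E n) :
    fderiv ℝ (fun y => (M y).det) x v =
      (M x).det * ∑ i, ∑ j, (M x)⁻¹ i j * fderiv ℝ (fun y => M y j i) x v := by
  have hd : ∀ i j, HasFDerivAt (fun y => M y i j) (fderiv ℝ (fun y => M y i j) x) x :=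
    fun i j => (hM i j).hasFDerivAt
  have h := HasFDerivAt.fun_sum (u := Finset.univ) fun (σ : Equiv.Perm (Fin n)) _ =>
    (HasFDerivAt.finsetProd (u := Finset.univ) fun i _ => hd (σ i) i).const_mul
      ((Equiv.Perm.sign σ : ℤ) : ℝ)
  have e : (fun y => (M y).det) =
      fun y => ∑ σ : Equiv.Perm (Fin n), ((Equiv.Perm.sign σ : ℤ) : ℝ) * ∏ i, M y (σ i) i := by
    funext y
    rw [Matrix.det_apply']
  rw [e, h.fderiv]
  have h1 : ∀ i, (M x).det * ∑ j, (M x)⁻¹ i j * fderiv ℝ (fun y => M y j i) x v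
      = ((M x).updateCol i fun j => fderiv ℝ (fun y => M y j i) x v).det := fun i => by
    rw [← Matrix.cramer_apply, Matrix.cramer_eq_adjugate_mulVec]
    simp only [Finset.mul_sum, Matrix.inv_def, Ring.inverse_eq_inv', Matrix.smul_apply,
      smul_eq_mul, Matrix.mulVec, dotProduct]
    refine Finset.sum_congr rfl fun j _ => ?_
    field_simp
  rw [Finset.mul_sum]
  simp only [h1]
  simp only [Matrix.det_apply', _root_.sum_apply, _root_.smul_apply,
    smul_eq_mul, Finset.mul_sum]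
  rw [Finset.sum_comm]
  refine Finset.sum_congr rfl fun i _ => Finset.sum_congr rfl fun σ _ => ?_
  congr 1
  rw [← Finset.mul_prod_erase Finset.univ _ (Finset.mem_univ i), Matrix.updateCol_self, mul_comm]
  congr 1
  exact Finset.prod_congr rfl fun j hj => by
    rw [Matrix.updateCol_ne (Finset.ne_of_mem_erase hj)]

theorem tr_Div (hg : Sm g x) (i : Fin n) :
    ∑ k, ∑ l, (g x)⁻¹ k l * pd i (fun y => g y l k) x = 2 * ∑ k, chr g k i k x := by
  have hs : ∀ k l, (g x)⁻¹ k l = (g x)⁻¹ l k := by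
    intro k l
    have h1 : (g x).transpose = g x := hg.sy.self_of_nhds
    have h2 := Matrix.transpose_nonsing_inv (g x)
    rw [h1] at h2
    conv_lhs => rw [← h2]
    rfl
  have h3 : ∑ k, ∑ l, (g x)⁻¹ k l * pd i (fun y => g y l k) x =
      ∑ k, ∑ l, (g x)⁻¹ k l * pd i (fun y => g y k l) x := by
    rw [Finset.sum_comm]
    exact Finset.sum_congr rfl fun k _ => Finset.sum_congr rfl fun l _ => by rw [hs]
  have h4 : ∑ k, ∑ l, (g x)⁻¹ k l * pd k (fun y => g y i l) x =
      ∑ k, ∑ l, (g x)⁻¹ k l * pd l (fun y => g y i k) x := by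
    rw [Finset.sum_comm]
    exact Finset.sum_congr rfl fun k _ => Finset.sum_congr rfl fun l _ => by rw [hs]
  unfold chr
  rw [← Finset.mul_sum]
  simp only [mul_sub, mul_add, Finset.sum_sub_distrib, Finset.sum_add_distrib]
  rw [h3, h4]
  ring

theorem rho_Div (hg : Sm g x) (h0 : 0 < (g x).det) (i : Fin n) :
    pd i (fun y => √(g y).det) x = √(g x).det * ∑ k, chr g k i k x := by
  have hd : DifferentiableAt ℝ (fun y => (g y).det) x := hg.det_sm.differentiableAt (by simp)
  have h1 := jac_Div (M := g) (fun a b => (hg.sm a b).differentiableAt (by simp)) hg.det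
    (EuclideanSpace.single i 1)
  have h2 : fderiv ℝ (fun y => (g y).det) x (EuclideanSpace.single i 1) =
      (g x).det * (2 * ∑ k, chr g k i k x) := by
    rw [h1, ← tr_Div hg i]
    rfl
  have h3 : 0 < √(g x).det := Real.sqrt_pos.2 h0
  rw [pd, (hd.hasFDerivAt.sqrt h0.ne').fderiv, smul_apply, h2, smul_eq_mul]
  generalize ∑ k, chr g k i k x = T
  have h4 := Real.mul_self_sqrt h0.le
  generalize √(g x).det = r at h3 h4
  rw [← h4]
  field_simp

theorem alg_Div (Γ : Fin n → Fin n → Fin n → ℝ) (hΓ : ∀ k i j, Γ k i j = Γ k j i)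
    (h H : Fin n → Fin n → ℝ) (a : Fin n → ℝ) (ρ : ℝ) :
    ∑ i, ∑ j, ((ρ * ∑ k, Γ k i k) * h i j * a j +
      ρ * (-∑ m, (Γ i i m * h m j + Γ j i m * h i m)) * a j + ρ * h i j * H i j) =
      ρ * ∑ i, ∑ j, h i j * (H i j - ∑ k, Γ k i j * a k) := by
  have h1 : ∑ i, ∑ j, (∑ k, Γ k i k) * h i j * a j = ∑ i, ∑ j, (∑ m, Γ i i m * h m j) * a j := by
    simp only [Finset.sum_mul]
    rw [Finset.sum_comm]
    conv_rhs => rw [Finset.sum_comm]
    refine Finset.sum_congr rfl fun j _ => ?_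
    rw [Finset.sum_comm]
    exact Finset.sum_congr rfl fun k _ => Finset.sum_congr rfl fun i _ => by rw [hΓ]
  have h2 : ∑ i, ∑ j, (∑ m, Γ j i m * h i m) * a j = ∑ i, ∑ j, h i j * ∑ k, Γ k i j * a k := by
    simp only [Finset.sum_mul, Finset.mul_sum]
    refine Finset.sum_congr rfl fun i _ => ?_
    rw [Finset.sum_comm]
    exact Finset.sum_congr rfl fun k _ => Finset.sum_congr rfl fun j _ => by ring
  have h3 : ∀ i j, (ρ * ∑ k, Γ k i k) * h i j * a j +
      ρ * (-∑ m, (Γ i i m * h m j + Γ j i m * h i m)) * a j + ρ * h i j * H i j =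
      ρ * ((∑ k, Γ k i k) * h i j * a j - (∑ m, Γ i i m * h m j) * a j -
        (∑ m, Γ j i m * h i m) * a j + h i j * H i j) := by
    intro i j
    rw [Finset.sum_add_distrib]
    ring
  simp only [h3, ← Finset.mul_sum]
  congr 1
  simp only [mul_sub, Finset.sum_add_distrib, Finset.sum_sub_distrib]
  rw [h1, h2]
  ring

theorem pd3_Div {u v w : E n → ℝ} (hu : DifferentiableAt ℝ u x) (hv : DifferentiableAt ℝ v x)
    (hw : DifferentiableAt ℝ w x) (i : Fin n) :
    pd i (fun y => u y * v y * w y) x =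
      pd i u x * v x * w x + u x * pd i v x * w x + u x * v x * pd i w x := by
  have h := (hu.hasFDerivAt.fun_mul hv.hasFDerivAt).fun_mul hw.hasFDerivAt
  rw [pd, h.fderiv]
  simp only [pd, add_apply, smul_apply, smul_eq_mul]
  ring

theorem Sm.dens_sm (hg : Sm g x) (h0 : 0 < (g x).det) (i j : Fin n) :
    ContDiffAt ℝ 1 (fun y => (√(g y).det • (g y)⁻¹) i j) x := by
  have h := (hg.det_sm.sqrt h0.ne').mul (hg.inv_sm i j)
  exact h.of_le (by norm_num)

theorem Sm.div_eq (hg : Sm g x) (h0 : 0 < (g x).det) (hf : ContDiffAt ℝ 2 f x) :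
    ∑ i, pd i (fun y => ∑ j, (√(g y).det • (g y)⁻¹) i j * pd j f y) x =
      √(g x).det * lapg g f x := by
  have hρ : DifferentiableAt ℝ (fun y => √(g y).det) x :=
    (hg.det_sm.sqrt h0.ne').differentiableAt (by simp)
  have hh : ∀ i j, DifferentiableAt ℝ (fun y => (g y)⁻¹ i j) x :=
    fun i j => (hg.inv_sm i j).differentiableAt (by simp)
  have hp : ∀ j, DifferentiableAt ℝ (pd j f) x := by
    intro j
    have h1 : DifferentiableAt ℝ (fderiv ℝ f) x :=
      (hf.fderiv_right (m := 1) (by norm_num)).differentiableAt (by simp)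
    exact h1.clm_apply (differentiableAt_const _)
  have key : ∀ i, pd i (fun y => ∑ j, (√(g y).det • (g y)⁻¹) i j * pd j f y) x =
      ∑ j, pd i (fun y => √(g y).det * (g y)⁻¹ i j * pd j f y) x := by
    intro i
    have h2 := HasFDerivAt.fun_sum (u := Finset.univ) fun j _ =>
      ((hρ.fun_mul (hh i j)).fun_mul (hp j)).hasFDerivAt
    have h3 : (fun y => ∑ j, (√(g y).det • (g y)⁻¹) i j * pd j f y) =
        fun y => ∑ j, √(g y).det * (g y)⁻¹ i j * pd j f y := rfl
    rw [h3, pd, h2.fderiv, sum_apply]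
    rfl
  rw [lapg, ← alg_Div (fun k i j => chr g k i j x) (fun k i j => hg.chr_symm k i j)
    (fun i j => (g x)⁻¹ i j) (fun i j => pd i (pd j f) x) (fun j => pd j f x)]
  refine Finset.sum_congr rfl fun i _ => ?_
  rw [key]
  refine Finset.sum_congr rfl fun j _ => ?_
  rw [pd3_Div hρ (hh i j) (hp j), rho_Div hg h0, hg.pd_ginv]

end

end Vale.Agent.P210
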