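import Vale.Agent.P210.G.Defs

/-! P210 G/Ell: linear algebra of elliptic matrices (helper names end with _Ell). `Ell L a` gives `a.PosDef` (`qf a v v > 0` for `v ≠ 0`), `‖v‖ ^ 2 ≤ L ^ 2 qf a v v`, `qf a v v ≤ L ^ 2 ‖v‖ ^ 2`.
Eigenvalues (`Matrix.IsHermitian.eigenvalues`, `det_eq_prod_eigenvalues`, `mulVec_eigenvectorBasis`) lie in `[1 / L ^ 2, L ^ 2]`, so `√det ∈ [L⁻¹ ^ n, L ^ n]`. For `v = a⁻¹ ξ`: `qf a⁻¹ ξ ξ = ξ ⬝ v = qf a v v =: t ≥ 0`, and `t ≤ |ξ| ‖v‖ ≤ |ξ| L √t`. Take `K = (1 + |L|) ^ (n + 2)` or anything larger. -/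

namespace Vale.Agent.P210

open Set Filter Topology Metric MeasureTheory
open scoped ENNReal

noncomputable section

theorem qf_dot_Ell {n : ℕ} (a : Matrix (Fin n) (Fin n) ℝ) (ξ : Fin n → ℝ) :
    qf a ξ ξ = ξ ⬝ᵥ a.mulVec ξ := by
  simp only [qf, dotProduct, Matrix.mulVec, Finset.mul_sum]
  exact Finset.sum_congr rfl fun i _ => Finset.sum_congr rfl fun j _ => by ring

theorem det_Ell {n : ℕ} {L : ℝ} {a : Matrix (Fin n) (Fin n) ℝ} (h : Ell L a) :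
    0 < a.det ∧ 1 ≤ (1 + |L|) ^ n * √a.det ∧ √a.det ≤ (1 + |L|) ^ n := by
  have hH : a.IsHermitian := h.sy
  have hL : L ≤ 1 + |L| := by linarith [le_abs_self L]
  have hn : ∀ i, ‖hH.eigenvectorBasis i‖ = 1 := fun i => hH.eigenvectorBasis.orthonormal.1 i
  have hq : ∀ i, qf a (hH.eigenvectorBasis i) (hH.eigenvectorBasis i) = hH.eigenvalues i :=
    fun i => by
      rw [qf_dot_Ell, hH.mulVec_eigenvectorBasis, dotProduct_smul, smul_eq_mul]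
      have h1 := EuclideanSpace.real_norm_sq_eq (hH.eigenvectorBasis i)
      rw [hn] at h1
      have h2 : (hH.eigenvectorBasis i).ofLp ⬝ᵥ (hH.eigenvectorBasis i).ofLp = 1 := by
        simp only [dotProduct, ← sq]
        rw [← h1, one_pow]
      rw [h2, mul_one]
  have h1 : ∀ i, 1 ≤ (1 + |L|) * √(hH.eigenvalues i) := fun i => by
    have := h.lo (hH.eigenvectorBasis i)
    rw [hq, hn] at this
    exact this.trans (mul_le_mul_of_nonneg_right hL (Real.sqrt_nonneg _))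
  have h2 : ∀ i, √(hH.eigenvalues i) ≤ 1 + |L| := fun i => by
    have := h.hi (hH.eigenvectorBasis i)
    rw [hq, hn, mul_one] at this
    exact this.trans hL
  have h3 : ∀ i, 0 < hH.eigenvalues i := fun i => by
    by_contra hh
    have := h1 i
    rw [Real.sqrt_eq_zero'.2 (not_lt.1 hh), mul_zero] at this
    linarith
  have hd : a.det = ∏ i, hH.eigenvalues i := by simpa using hH.det_eq_prod_eigenvalues
  have hd' : a.det = (∏ i, √(hH.eigenvalues i)) ^ 2 := by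
    rw [hd, ← Finset.prod_pow]
    exact Finset.prod_congr rfl fun i _ => (Real.sq_sqrt (h3 i).le).symm
  have hs : √a.det = ∏ i, √(hH.eigenvalues i) := by
    rw [hd', Real.sqrt_sq (Finset.prod_nonneg fun i _ => Real.sqrt_nonneg _)]
  have hc : (1 + |L|) ^ n = ∏ _i : Fin n, (1 + |L|) := by simp
  refine ⟨hd ▸ Finset.prod_pos fun i _ => h3 i, ?_, ?_⟩
  · rw [hs, hc, ← Finset.prod_mul_distrib]
    calc (1 : ℝ) = ∏ _i : Fin n, (1 : ℝ) := by simp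
      _ ≤ _ := Finset.prod_le_prod (fun i _ => zero_le_one) fun i _ => h1 i
  · rw [hs, hc]
    exact Finset.prod_le_prod (fun i _ => Real.sqrt_nonneg _) fun i _ => h2 i

theorem inv_Ell {n : ℕ} {L : ℝ} {a : Matrix (Fin n) (Fin n) ℝ} (h : Ell L a) (ξ : Fin n → ℝ) :
    0 ≤ qf a⁻¹ ξ ξ ∧ qf a⁻¹ ξ ξ ≤ (1 + |L|) ^ 2 * ∑ i, ξ i ^ 2 := by
  have hL : L ≤ 1 + |L| := by linarith [le_abs_self L]
  have hu : IsUnit a.det := (det_Ell h).1.ne'.isUnit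
  have h1 : a.mulVec (a⁻¹.mulVec ξ) = ξ := by
    rw [Matrix.mulVec_mulVec, Matrix.mul_nonsing_inv _ hu, Matrix.one_mulVec]
  have h2 : qf a (a⁻¹.mulVec ξ) (a⁻¹.mulVec ξ) = qf a⁻¹ ξ ξ := by
    rw [qf_dot_Ell, qf_dot_Ell, h1, dotProduct_comm]
  have h3 := h.lo (WithLp.toLp 2 (a⁻¹.mulVec ξ))
  rw [WithLp.ofLp_toLp, h2] at h3
  have h4 : |qf a⁻¹ ξ ξ| ≤ ‖(WithLp.toLp 2 ξ : E n)‖ * ‖(WithLp.toLp 2 (a⁻¹.mulVec ξ) : E n)‖ := by
    refine le_of_eq_of_le ?_ (abs_real_inner_le_norm _ _)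
    rw [qf_dot_Ell, EuclideanSpace.inner_toLp_toLp, dotProduct_comm]
    rfl
  have h5 : ‖(WithLp.toLp 2 ξ : E n)‖ ^ 2 = ∑ i, ξ i ^ 2 := EuclideanSpace.real_norm_sq_eq _
  rw [← h5]
  have h6 := norm_nonneg (WithLp.toLp 2 ξ : E n)
  have h7 := h4.trans (mul_le_mul_of_nonneg_left
    (h3.trans (mul_le_mul_of_nonneg_right hL (Real.sqrt_nonneg _))) h6)
  generalize qf a⁻¹ ξ ξ = t at *
  generalize ‖(WithLp.toLp 2 ξ : E n)‖ = x at *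
  have h8 : 0 ≤ t := by
    by_contra hh
    rw [Real.sqrt_eq_zero'.2 (not_le.1 hh).le, mul_zero, mul_zero] at h7
    exact hh (abs_nonpos_iff.1 h7).ge
  rw [abs_of_nonneg h8] at h7
  refine ⟨h8, ?_⟩
  nlinarith [Real.sq_sqrt h8, sq_nonneg (√t - (1 + |L|) * x)]

theorem ell_bound (n : ℕ) (L : ℝ) : ∃ K : ℝ, 1 ≤ K ∧ ∀ a : Matrix (Fin n) (Fin n) ℝ, Ell L a →
    0 < a.det ∧ 1 ≤ K * √a.det ∧ √a.det ≤ K ∧ (√a.det • a⁻¹).IsSymm ∧
      ∀ ξ : Fin n → ℝ, 0 ≤ qf (√a.det • a⁻¹) ξ ξ ∧ qf (√a.det • a⁻¹) ξ ξ ≤ K * ∑ i, ξ i ^ 2 := by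
  have hM : 1 ≤ 1 + |L| := by linarith [abs_nonneg L]
  have hp : (1 + |L|) ^ n ≤ (1 + |L|) ^ (n + 2) := pow_le_pow_right₀ hM (by omega)
  refine ⟨(1 + |L|) ^ (n + 2), one_le_pow₀ hM, fun a h => ?_⟩
  obtain ⟨h1, h2, h3⟩ := det_Ell h
  refine ⟨h1, h2.trans (mul_le_mul_of_nonneg_right hp (Real.sqrt_nonneg _)), h3.trans hp,
    (h.sy.inv).smul _, fun ξ => ?_⟩
  obtain ⟨h4, h5⟩ := inv_Ell h ξ
  have h6 : qf (√a.det • a⁻¹) ξ ξ = √a.det * qf a⁻¹ ξ ξ := by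
    rw [qf_dot_Ell, qf_dot_Ell, Matrix.smul_mulVec, dotProduct_smul, smul_eq_mul]
  rw [h6, pow_add, mul_assoc]
  exact ⟨mul_nonneg (Real.sqrt_nonneg _) h4, mul_le_mul h3 h5 h4 (by positivity)⟩

end

end Vale.Agent.P210
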