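import Vale.Agent.P210.G.Defs
import Vale.Agent.P210.Key

/-! P210 G/Key: the energy inequality for a divergence form operator (helper names end with _GKey). Model: P210/Key.lean (reuse `G_Key`). With a cutoff `χ` (as in `key`) replace `f` by `χ f`, the field `X i = ∑ j, a · i j * pd j f` by the global `C^1` field `χ X i` and `S` by the continuous `χ S`.
Test function `φ = ψ ^ 2 * G (f)`; `∫ ∑ i, pd i (X i) * φ = -∫ ∑ i, X i * pd i φ` (`P098.ibp_mul` or `P098.ibp0` in P098/K/Ibp.lean); a.e. `∑ i, X i * pd i φ = 2 ψ G qf a dψ df + ψ ^ 2 G' qf a df df`.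
For the symmetric nonnegative form: `4 p qf a u v ≤ p ^ 2 qf a v v / 2 + 8 qf a u u` (expand `0 ≤ qf a (p v - 4 u) (p v - 4 u)`); `∑ i, pd i ψ x ^ 2 = ‖fderiv ψ x‖ ^ 2` (`P098.sum_sq_bv`). -/

namespace Vale.Agent.P210

open Set Filter Topology Metric MeasureTheory
open scoped ENNReal

noncomputable section

variable {n : ℕ} {Ω : Set (E n)} {f S : E n → ℝ}

theorem alg_GKey {N K E l p D G G' Q U T b : ℝ} (hN : 3 ≤ N) (hK : 0 ≤ K) (hG : 0 ≤ G)
    (hG' : G' ≤ G / 4) (hQ : 0 ≤ Q) (hT : 0 ≤ T) (hU : U ≤ K * b ^ 2)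
    (hD : 4 * (p * D) ≤ p ^ 2 * Q / 2 + 8 * U)
    (hE : E ≤ K * (K * T - (N - 1) * (2 * l + (N - 2) * Q))) :
    E * G * p ^ 2 ≤ 8 * N * K ^ 2 * (G * b ^ 2 + G * T * p ^ 2) -
      2 * K * (N - 1) * (l * (p ^ 2 * G) + (2 * p * G * D + p ^ 2 * G' * Q)) := by
  have h1 := mul_le_mul_of_nonneg_right (mul_le_mul_of_nonneg_right hE hG) (sq_nonneg p)
  have h4 := mul_le_mul_of_nonneg_left hD hG
  have h5 : 0 ≤ p ^ 2 * Q := by positivity
  have h6 := mul_le_mul_of_nonneg_right hG' h5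
  have h7 := mul_le_mul_of_nonneg_right (show 1 ≤ N - 2 by linarith) (mul_nonneg hG h5)
  have h2 := mul_le_mul_of_nonneg_left hU hG
  have h8 : 2 * (2 * p * G * D + p ^ 2 * G' * Q) ≤
      8 * (K * (G * b ^ 2)) + (N - 2) * (G * (p ^ 2 * Q)) := by linarith
  have h9 := mul_le_mul_of_nonneg_left h8 (mul_nonneg hK (show 0 ≤ N - 1 by linarith))
  have h10 : 0 ≤ K ^ 2 * (G * b ^ 2) := by positivity
  have h11 : 0 ≤ K ^ 2 * (G * T * p ^ 2) := by positivity
  have h12 := mul_le_mul_of_nonneg_right (show 1 ≤ 8 * N by linarith) h11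
  linarith

theorem cs_GKey {A : Matrix (Fin n) (Fin n) ℝ} (hA : A.IsSymm) (h0 : ∀ ξ, 0 ≤ qf A ξ ξ) (p : ℝ)
    (u v : Fin n → ℝ) : 4 * (p * qf A u v) ≤ p ^ 2 * qf A v v / 2 + 8 * qf A u u := by
  have h1 : qf A v u = qf A u v := by
    unfold qf
    rw [Finset.sum_comm]
    refine Finset.sum_congr rfl fun i _ => Finset.sum_congr rfl fun j _ => ?_
    rw [hA.apply i j]
    ring
  have h2 : qf A (fun i => p * v i - 4 * u i) (fun i => p * v i - 4 * u i) =
      p ^ 2 * qf A v v - 4 * p * qf A v u - 4 * p * qf A u v + 16 * qf A u u := by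
    simp only [qf, Finset.mul_sum, ← Finset.sum_sub_distrib, ← Finset.sum_add_distrib]
    exact Finset.sum_congr rfl fun i _ => Finset.sum_congr rfl fun j _ => by ring
  have h3 := h0 fun i => p * v i - 4 * u i
  rw [h2, h1] at h3
  linarith

theorem glob_GKey (hn : 3 ≤ n) (hf : ContDiff ℝ 1 f) {X : Fin n → E n → ℝ}
    (hX : ∀ i, ContDiff ℝ 1 (X i)) (hS : Continuous S) {K : ℝ} (hK : 0 ≤ K) {ψ : E n → ℝ}
    (h : ∀ x, ψ x ≠ 0 → ∃ A : Matrix (Fin n) (Fin n) ℝ, A.IsSymm ∧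
      (∀ ξ, 0 ≤ qf A ξ ξ ∧ qf A ξ ξ ≤ K * ∑ i, ξ i ^ 2) ∧ (∀ i, X i x = ∑ j, A i j * pd j f x) ∧
      0 ≤ S x ∧ Real.exp (2 * f x) ≤ K * (K * S x - ((n : ℝ) - 1) *
        (2 * ∑ i, pd i (X i) x + ((n : ℝ) - 2) * qf A (grad f x) (grad f x))))
    {ε : ℝ} (hε : 0 < ε) (hψ : P098.Lip ψ) (hc : HasCompactSupport ψ) :
    ∫ x, FF ε f x * ψ x ^ 2 ≤ 8 * n * K ^ 2 *
      ((∫ x, GG ε f x * ‖fderiv ℝ ψ x‖ ^ 2) + ∫ x, GG ε f x * S x * ψ x ^ 2) := by
  obtain ⟨G, G', hG, hG1, hGd, hG4⟩ := G_Key hε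
  obtain ⟨R, hR⟩ := P098.exists_radius hc
  obtain ⟨C, hC0, hC, -⟩ := hψ.bdd
  have hn' : (3 : ℝ) ≤ n := by exact_mod_cast hn
  have hGf : ContDiff ℝ 1 fun x => G (f x) := hG1.comp hf
  have hG0 : ∀ t, 0 ≤ G t := fun t => by rw [hG]; positivity
  have h0 : ∀ x, R ≤ ‖x‖ → ψ x ^ 2 * G (f x) = 0 := fun x hx => by simp [hR x hx]
  have hg : LocallyLipschitz fun x => ψ x ^ 2 * G (f x) := by
    refine P098.loc_mul ?_ hGf.locallyLipschitz
    simpa only [sq] using P098.loc_mul hψ.loc hψ.loc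
  have hi := fun i => P098.ibp_mul (hX i).locallyLipschitz hg h0 (EuclideanSpace.single i 1)
  have i1 : Integrable fun x => ∑ i, pd i (X i) x * (ψ x ^ 2 * G (f x)) :=
    integrable_finsetSum _ fun i _ => (hi i).1
  have i2 : Integrable fun x => ∑ i, X i x * pd i (fun x => ψ x ^ 2 * G (f x)) x :=
    integrable_finsetSum _ fun i _ => (hi i).2.1
  have e1 : ∫ x, ∑ i, pd i (X i) x * (ψ x ^ 2 * G (f x)) =
      -∫ x, ∑ i, X i x * pd i (fun x => ψ x ^ 2 * G (f x)) x := by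
    unfold pd
    rw [integral_finsetSum _ fun i _ => (hi i).1, integral_finsetSum _ fun i _ => (hi i).2.1,
      ← Finset.sum_neg_distrib]
    exact Finset.sum_congr rfl fun i _ => (hi i).2.2
  have i3 : Integrable fun x => G (f x) * ‖fderiv ℝ ψ x‖ ^ 2 :=
    P098.ibp_int (R := R) hGf.continuous.measurable ((measurable_fderiv ℝ ψ).norm.pow_const 2)
      (P098.ibp_bd hGf.continuous R)
      ⟨C ^ 2, fun x _ => by
        rw [abs_of_nonneg (sq_nonneg _)]
        exact pow_le_pow_left₀ (norm_nonneg _) (hC x) 2⟩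
      fun x hx => by simp [P098.ibp_zero hR hx]
  have hc1 : Continuous fun x => G (f x) * S x := hGf.continuous.mul hS
  have hc2 : Continuous fun x => ψ x ^ 2 := hψ.loc.continuous.pow 2
  have i3' : Integrable fun x => G (f x) * S x * ψ x ^ 2 :=
    P098.ibp_int (R := R) hc1.measurable hc2.measurable (P098.ibp_bd hc1 R) (P098.ibp_bd hc2 R)
      fun x hx => by simp [hR x hx.le]
  have i4 : Integrable fun x => 8 * (n : ℝ) * K ^ 2 *
      (G (f x) * ‖fderiv ℝ ψ x‖ ^ 2 + G (f x) * S x * ψ x ^ 2) := (i3.add i3').const_mul _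
  have i5 : Integrable fun x => 2 * K * ((n : ℝ) - 1) *
      (∑ i, pd i (X i) x * (ψ x ^ 2 * G (f x)) +
        ∑ i, X i x * pd i (fun x => ψ x ^ 2 * G (f x)) x) := (i1.add i2).const_mul _
  have key := integral_mono_of_nonneg (μ := volume) (f := fun x => FF ε f x * ψ x ^ 2)
    (Eventually.of_forall fun x => by unfold FF; positivity) (i4.sub i5) ?_
  · simp only [Pi.sub_apply] at key
    rw [integral_sub i4 i5, integral_const_mul, integral_const_mul, integral_add i1 i2, e1,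
      integral_add i3 i3'] at key
    simp only [GG, ← hG]
    linarith
  · filter_upwards [hψ.ae_diff] with x hx
    have hd := (hx.hasFDerivAt.pow 2).fun_mul
      ((hGd (f x)).comp_hasFDerivAt x (hf.differentiable one_ne_zero x).hasFDerivAt)
    have e2 : ∀ i, pd i (fun x => ψ x ^ 2 * G (f x)) x =
        2 * ψ x * G (f x) * pd i ψ x + ψ x ^ 2 * G' (f x) * pd i f x := by
      intro i
      have hd' : fderiv ℝ (fun x => ψ x ^ 2 * G (f x)) x = _ := hd.fderiv
      simp only [pd, hd']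
      simp
      ring
    simp only [Pi.sub_apply, e2]
    by_cases hp : ψ x = 0
    · have h1 := hG0 (f x)
      simp only [hp, ne_eq, OfNat.ofNat_ne_zero, not_false_eq_true, zero_pow, mul_zero, zero_mul,
        add_zero, Finset.sum_const_zero, sub_zero]
      positivity
    · obtain ⟨A, hA, hq, hx1, hx2, hx3⟩ := h x hp
      have e3 : FF ε f x = Real.exp (2 * f x) * G (f x) := by
        rw [FF, hG, show 2 * f x = (8 : ℕ) * (f x / 4) by push_cast; ring, Real.exp_nat_mul]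
        ring
      have e4 : ∑ i, X i x * (2 * ψ x * G (f x) * pd i ψ x + ψ x ^ 2 * G' (f x) * pd i f x) =
          2 * ψ x * G (f x) * qf A (grad ψ x) (grad f x) +
            ψ x ^ 2 * G' (f x) * qf A (grad f x) (grad f x) := by
        simp only [hx1, qf, grad, Finset.mul_sum, Finset.sum_mul, ← Finset.sum_add_distrib]
        exact Finset.sum_congr rfl fun i _ => Finset.sum_congr rfl fun j _ => by ring
      have e5 : ∑ i, grad ψ x i ^ 2 = ‖fderiv ℝ ψ x‖ ^ 2 := P098.sum_sq_bv (fderiv ℝ ψ x)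
      rw [e3, e4, ← Finset.sum_mul]
      exact alg_GKey hn' hK (hG0 _) (hG4 _) (hq _).1 hx2 (e5 ▸ (hq (grad ψ x)).2)
        (cs_GKey hA (fun ξ => (hq ξ).1) _ _ _) hx3

theorem cut_GKey (hΩ : IsOpen Ω) {k : WithTop ℕ∞} {χ u : E n → ℝ} (hχ : ContDiff ℝ k χ)
    (h0 : ∀ᶠ x in 𝓝ˢ Ωᶜ, χ x = 0) (hu : ContDiffOn ℝ k u Ω) : ContDiff ℝ k fun x => χ x * u x := by
  refine contDiff_iff_contDiffAt.2 fun x => ?_
  by_cases hx : x ∈ Ω
  · exact hχ.contDiffAt.mul (hu.contDiffAt (hΩ.mem_nhds hx))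
  · refine (contDiffAt_const (c := (0 : ℝ))).congr_of_eventuallyEq ?_
    filter_upwards [h0.filter_mono (nhds_le_nhdsSet hx)] with y hy
    rw [hy, zero_mul]

theorem key2 (hn : 3 ≤ n) (hΩ : IsOpen Ω) (hf : ContDiffOn ℝ 2 f Ω)
    {a : E n → Matrix (Fin n) (Fin n) ℝ} (ha : ∀ i j, ContDiffOn ℝ 1 (fun y => a y i j) Ω)
    (hs : ∀ x ∈ Ω, (a x).IsSymm) {K : ℝ} (hK : 0 ≤ K)
    (hq : ∀ x ∈ Ω, ∀ ξ, 0 ≤ qf (a x) ξ ξ ∧ qf (a x) ξ ξ ≤ K * ∑ i, ξ i ^ 2)
    (hS : ContinuousOn S Ω) (S0 : ∀ x, 0 ≤ S x)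
    (h : ∀ x ∈ Ω, Real.exp (2 * f x) ≤ K * (K * S x - ((n : ℝ) - 1) *
      (2 * ∑ i, pd i (fun y => ∑ j, a y i j * pd j f y) x +
        ((n : ℝ) - 2) * qf (a x) (grad f x) (grad f x))))
    {ε : ℝ} (hε : 0 < ε) : Energy Ω f S (8 * n * K ^ 2) ε := by
  intro ψ hψ hc hsub
  obtain ⟨χ, h0, h1, -⟩ := exists_contMDiffMap_zero_one_nhds_of_isClosed (n := 1)
    (modelWithCornersSelf ℝ (E n)) hΩ.isClosed_compl (isClosed_tsupport ψ)
    (disjoint_compl_left_iff_subset.2 hsub)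
  have hχ : ContDiff ℝ 1 χ := χ.contMDiff.contDiff
  have he : ∀ (u : E n → ℝ), ∀ x ∈ tsupport ψ, (fun x => χ x * u x) =ᶠ[𝓝 x] u := fun u x hx => by
    filter_upwards [h1.filter_mono (nhds_le_nhdsSet hx)] with y hy
    rw [hy, one_mul]
  have hpd : ∀ j, ContDiffOn ℝ 1 (pd j f) Ω := fun j =>
    (hf.fderiv_of_isOpen hΩ (m := 1) (by norm_num)).clm_apply contDiffOn_const
  have key := glob_GKey hn (cut_GKey hΩ hχ h0 (hf.of_le (by norm_num)))
    (X := fun i x => χ x * ∑ j, a x i j * pd j f x)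
    (fun i => cut_GKey hΩ hχ h0 (ContDiffOn.sum fun j _ => (ha i j).mul (hpd j)))
    (cut_GKey hΩ (hχ.of_le zero_le_one) h0 (contDiffOn_zero.2 hS)).continuous hK
    (fun x hx => ?_) hε hψ hc
  · refine le_of_eq_of_le (integral_congr_ae (Eventually.of_forall fun x => ?_))
      (key.trans_eq (congrArg _ (congrArg₂ _ (integral_congr_ae (Eventually.of_forall fun x => ?_))
        (integral_congr_ae (Eventually.of_forall fun x => ?_)))))
    · by_cases hx : x ∈ tsupport ψ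
      · have := (he f x hx).eq_of_nhds
        simp only [FF] at this ⊢
        rw [this]
      · simp [image_eq_zero_of_notMem_tsupport hx]
    · by_cases hx : x ∈ tsupport ψ
      · have := (he f x hx).eq_of_nhds
        simp only [GG] at this ⊢
        rw [this]
      · simp [fderiv_of_notMem_tsupport ℝ hx]
    · by_cases hx : x ∈ tsupport ψ
      · have h2 := (he f x hx).eq_of_nhds
        have h3 := (he S x hx).eq_of_nhds
        simp only [GG] at h2 h3 ⊢
        rw [h2, h3]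
      · simp [image_eq_zero_of_notMem_tsupport hx]
  · have hx' := subset_tsupport ψ hx
    have h2 : ∀ (u : E n → ℝ) i, pd i (fun x => χ x * u x) x = pd i u x := fun u i => by
      rw [pd, pd, (he u x hx').fderiv_eq]
    have h3 : ∀ u : E n → ℝ, χ x * u x = u x := fun u => (he u x hx').eq_of_nhds
    have h4 : grad (fun x => χ x * f x) x = grad f x := funext fun i => h2 f i
    refine ⟨a x, hs x (hsub hx'), hq x (hsub hx'), fun i => ?_, ?_, ?_⟩
    · simp only [h2]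
      exact h3 fun x => ∑ j, a x i j * pd j f x
    · rw [h3]
      exact S0 x
    · simp only [h2, h3, h4]
      exact h x (hsub hx')

end

end Vale.Agent.P210
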