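import Vale.Agent.P210.G.MorC
import Vale.Agent.P210.Mor

/-! P210 G/MorD: the local Morrey bound (helper names end with _MorD). Model: P210/Mor.lean (reuse `pt_Mor`, `int_Mor`, `lim_Mor`, `tent0_Mor`). `S ≤ 1 + S ^ (n / 2)` gives the integrability for `mor_c`, `r = τ ^ 4`.
New term: at a point with `S > 0` put `σ = (S ^ (1 / 8))⁻¹`; `pt_Mor` with `σ` gives `GG S ζ ^ 18 ≤ GG S ζ ^ 2 ≤ δ FF ζ ^ 18 + S ^ (9 / 8) / δ`, and `S ^ (9 / 8) ≤ 1 / τ ^ 9 + S ^ (n / 2) τ ^ (4 n) / τ ^ 9` (cases `S ≤ 1 / τ ^ 8` or not; `9 / 8 ≤ n / 2`).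
With `c' = max c 1`, `163 c' δ = 1 / 2` absorb; `Measure.addHaar_real_closedBall`. -/

namespace Vale.Agent.P210

open Set Filter Topology Metric MeasureTheory
open scoped ENNReal

noncomputable section

theorem pow_MorD {a : ℝ} (ha : 0 ≤ a) {k m : ℕ} (h : k ≤ m) : a ^ k ≤ 1 + a ^ m := by
  rcases le_total a 1 with h1 | h1
  · linarith [pow_le_one₀ (n := k) ha h1, pow_nonneg ha m]
  · linarith [pow_le_pow_right₀ h1 h]

theorem root_MorD {S : ℝ} (hS : 0 ≤ S) (n : ℕ) :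
    ∃ w : ℝ, 0 ≤ w ∧ S = w ^ 8 ∧ S ^ ((n : ℝ) / 2) = w ^ (4 * n) := by
  refine ⟨S ^ (1 / 8 : ℝ), Real.rpow_nonneg hS _, ?_, ?_⟩
  · rw [← Real.rpow_natCast, ← Real.rpow_mul hS]
    norm_num
  · rw [← Real.rpow_natCast, ← Real.rpow_mul hS]
    push_cast
    ring_nf

theorem pt_MorD {n : ℕ} (hn : 3 ≤ n) {v ζ τ δ ε S : ℝ} (hv : 0 < v) (hτ : 0 < τ) (h0 : 0 < δ)
    (h1 : δ ≤ 1) (hε : 0 < ε) (hS : 0 ≤ S) (z0 : 0 ≤ ζ) (z1 : ζ ≤ 1) :
    v / (1 + ε * v ^ 9) * S * ζ ^ 18 ≤ δ * (v ^ 9 / (1 + ε * v ^ 9) * ζ ^ 18) +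
      1 / (δ * τ ^ 9) + τ ^ (4 * n) / (δ * τ ^ 9) * S ^ ((n : ℝ) / 2) := by
  obtain ⟨w, hw, rfl, e⟩ := root_MorD hS n
  rw [e]
  have a1 := div_le_div_of_nonneg_right (pow_MorD (a := w * τ) (by positivity)
    (show 9 ≤ 4 * n by omega)) (show 0 ≤ δ * τ ^ 9 by positivity)
  have e1 : (w * τ) ^ 9 / (δ * τ ^ 9) = w ^ 9 / δ := by field_simp
  have e2 : (1 + (w * τ) ^ (4 * n)) / (δ * τ ^ 9) =
      1 / (δ * τ ^ 9) + τ ^ (4 * n) / (δ * τ ^ 9) * w ^ (4 * n) := by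
    rw [mul_pow]
    ring
  rw [e1, e2] at a1
  rcases hw.eq_or_lt with rfl | hw
  · have : 0 ≤ δ * (v ^ 9 / (1 + ε * v ^ 9) * ζ ^ 18) := by positivity
    have : (0 : ℝ) ≤ 0 ^ 9 / δ := by positivity
    rw [zero_pow (by norm_num : 8 ≠ 0), mul_zero, zero_mul]
    linarith
  · have a2 := mul_le_mul_of_nonneg_left (pt_Mor (ζ := ζ) hv (inv_pos.2 hw) h0 h1 hε)
      (pow_pos hw 8).le
    have e3 : w ^ 8 * (w⁻¹ ^ 8 * δ * (v ^ 9 / (1 + ε * v ^ 9) * ζ ^ 18) + 1 / (δ * w⁻¹)) =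
        δ * (v ^ 9 / (1 + ε * v ^ 9) * ζ ^ 18) + w ^ 9 / δ := by field_simp
    have a3 := mul_le_mul_of_nonneg_left (pow_le_pow_of_le_one z0 z1 (show 2 ≤ 18 by norm_num))
      (show 0 ≤ v / (1 + ε * v ^ 9) * w ^ 8 by positivity)
    rw [e3] at a2
    linarith

theorem en_MorD {n : ℕ} {Ω : Set (E n)} {f S : E n → ℝ} {c ε : ℝ} (S0 : ∀ x, 0 ≤ S x) (hε : 0 < ε)
    (h : Energy Ω f S c ε) : Energy Ω f S (max c 1) ε := fun ψ h1 h2 h3 =>
  (h ψ h1 h2 h3).trans (mul_le_mul_of_nonneg_right (le_max_left _ _) (add_nonneg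
    (integral_nonneg fun y => by unfold GG; positivity)
    (integral_nonneg fun y => by have := S0 y; unfold GG; positivity)))

theorem morrey2 {n : ℕ} (hn : 3 ≤ n) (c Λ : ℝ) : ∃ A : ℝ, 0 < A ∧
    ∀ (Ω : Set (E n)) (f S : E n → ℝ) (L τ : ℝ) (x : E n) (η : ℕ → E n → ℝ), IsOpen Ω →
      ContinuousOn f Ω → ContinuousOn S Ω → (∀ x, 0 ≤ S x) → 0 ≤ L → 0 < τ →
      ∫⁻ y in closedBall x (2 * τ ^ 4) ∩ Ω, ENNReal.ofReal (S y) ^ ((n : ℝ) / 2) ≤
        ENNReal.ofReal Λ →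
      Cuts Ω (fun y => L * Real.exp (f y)) (closedBall x (2 * τ ^ 4)) η →
      (∀ ε : ℝ, 0 < ε → Energy Ω f S c ε) →
      ∫⁻ y in ball x (τ ^ 4) ∩ Ω, ENNReal.ofReal (Real.exp (f y / 4) ^ 9) ≤
        ENNReal.ofReal (A * τ ^ (4 * n) / τ ^ 9) := by
  have hB : 0 ≤ volume.real (ball (0 : E n) 1) := measureReal_nonneg
  have hc : 1 ≤ max c 1 := le_max_right _ _
  have hΛ : 0 ≤ max Λ 0 := le_max_right _ _
  refine ⟨652 * max c 1 ^ 2 * (163 * (2 ^ n * volume.real (ball (0 : E n) 1)) + max Λ 0) + 1,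
    by positivity, fun Ω f S L τ x η hΩ hf hS S0 hL hτ hI hη hE => ?_⟩
  have hv : ContinuousOn (fun y => Real.exp (f y / 4)) Ω := (hf.div_const 4).rexp
  have hr : 0 < τ ^ 4 := by positivity
  have hm : MeasurableSet (closedBall x (2 * τ ^ 4) ∩ Ω) :=
    measurableSet_closedBall.inter hΩ.measurableSet
  have hP0 : ∀ y, 0 ≤ S y ^ ((n : ℝ) / 2) := fun y => Real.rpow_nonneg (S0 y) _
  have hPm : AEStronglyMeasurable (fun y => S y ^ ((n : ℝ) / 2))
      (volume.restrict (closedBall x (2 * τ ^ 4) ∩ Ω)) :=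
    ((hS.mono inter_subset_right).rpow_const fun _ _ => Or.inr (by positivity)).aestronglyMeasurable hm
  simp only [fun y => ENNReal.ofReal_rpow_of_nonneg (S0 y) (show 0 ≤ (n : ℝ) / 2 by positivity)] at hI
  have hP : IntegrableOn (fun y => S y ^ ((n : ℝ) / 2)) (closedBall x (2 * τ ^ 4) ∩ Ω) :=
    ⟨hPm, (hasFiniteIntegral_iff_ofReal (Eventually.of_forall hP0)).2
      (hI.trans_lt ENNReal.ofReal_lt_top)⟩
  have hPΛ : ∫ y in closedBall x (2 * τ ^ 4) ∩ Ω, S y ^ ((n : ℝ) / 2) ≤ max Λ 0 := by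
    rw [integral_eq_lintegral_of_nonneg_ae (Eventually.of_forall hP0) hPm]
    exact ENNReal.toReal_le_of_le_ofReal hΛ (hI.trans (ENNReal.ofReal_le_ofReal (le_max_left _ _)))
  have hSi : IntegrableOn S (closedBall x (2 * τ ^ 4) ∩ Ω) := by
    refine (((ind_Mor x (2 * τ ^ 4) 1).integrableOn).add hP).mono'
      ((hS.mono inter_subset_right).aestronglyMeasurable hm)
      ((ae_restrict_mem hm).mono fun y hy => ?_)
    obtain ⟨w, hw, e1, e2⟩ := root_MorD (S0 y) n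
    rw [Real.norm_of_nonneg (S0 y), Pi.add_apply, indicator_of_mem hy.1, e2, e1]
    exact pow_MorD hw (by omega)
  refine lim_Mor hΩ hv (fun y => Real.exp_pos _) x hr fun ε hε => ?_
  have h := mor_c hΩ hf hS S0 (by linarith) hε hL hr hSi hη (en_MorD S0 hε (hE ε hε))
  unfold FF GG at h
  generalize max c 1 = c' at hc h ⊢
  have hi := int_Mor hΩ hv (fun y => Real.exp_pos _) hε x hr
  have hδ : 0 < 1 / (326 * c') := by positivity
  have hδ1 : 1 / (326 * c') ≤ 1 := (div_le_one (by positivity)).2 (by linarith)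
  have hj := fun a : ℝ => ind_Mor x (2 * τ ^ 4) a
  have hk : IntegrableOn ((closedBall x (2 * τ ^ 4)).indicator fun y => S y ^ ((n : ℝ) / 2)) Ω :=
    (integrableOn_indicator_iff measurableSet_closedBall).2 hP
  have h2 : ∀ a : ℝ, 0 ≤ a → ∫ y in Ω, (closedBall x (2 * τ ^ 4)).indicator (fun _ => a) y ≤
      volume.real (closedBall x (2 * τ ^ 4)) * a := fun a ha => by
    have := setIntegral_le_integral (s := Ω) (hj a)
      (Eventually.of_forall fun y => indicator_nonneg (fun _ _ => ha) y)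
    rwa [integral_indicator_const (μ := volume) _ measurableSet_closedBall, smul_eq_mul] at this
  have h1 : ∫ y in Ω, Real.exp (f y / 4) / (1 + ε * Real.exp (f y / 4) ^ 9) *
      tent (dist y x / τ ^ 4) ^ 2 ≤ ∫ y in Ω, (τ ^ 8 * (1 / (326 * c')) * (Real.exp (f y / 4) ^ 9 /
        (1 + ε * Real.exp (f y / 4) ^ 9) * tent (dist y x / τ ^ 4) ^ 18) +
          (closedBall x (2 * τ ^ 4)).indicator (fun _ => 1 / (1 / (326 * c') * τ)) y) := by
    refine integral_mono_of_nonneg (Eventually.of_forall fun y => by positivity)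
      ((hi.const_mul _).add (hj _).integrableOn) (Eventually.of_forall fun y => ?_)
    by_cases hy : y ∈ closedBall x (2 * τ ^ 4)
    · simp only [indicator_of_mem hy]
      exact pt_Mor (Real.exp_pos _) hτ hδ hδ1 hε
    · simp [indicator_of_notMem hy, tent0_Mor hr hy]
  have h3 : ∫ y in Ω, Real.exp (f y / 4) / (1 + ε * Real.exp (f y / 4) ^ 9) * S y *
      tent (dist y x / τ ^ 4) ^ 18 ≤ ∫ y in Ω, (1 / (326 * c') * (Real.exp (f y / 4) ^ 9 /
        (1 + ε * Real.exp (f y / 4) ^ 9) * tent (dist y x / τ ^ 4) ^ 18) +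
          (closedBall x (2 * τ ^ 4)).indicator (fun _ => 1 / (1 / (326 * c') * τ ^ 9)) y +
          τ ^ (4 * n) / (1 / (326 * c') * τ ^ 9) *
            (closedBall x (2 * τ ^ 4)).indicator (fun y => S y ^ ((n : ℝ) / 2)) y) := by
    refine integral_mono_of_nonneg (Eventually.of_forall fun y => by have := S0 y; positivity)
      (((hi.const_mul _).add (hj _).integrableOn).add (hk.const_mul _))
      (Eventually.of_forall fun y => ?_)
    by_cases hy : y ∈ closedBall x (2 * τ ^ 4)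
    · simp only [indicator_of_mem hy]
      exact pt_MorD hn (Real.exp_pos _) hτ hδ hδ1 hε (S0 y) (tent_mem _).1 (tent_mem _).2
    · simp [indicator_of_notMem hy, tent0_Mor hr hy]
  rw [integral_add (hi.const_mul _) (hj _).integrableOn, integral_const_mul] at h1
  rw [integral_add (by exact (hi.const_mul _).add (hj _).integrableOn) (hk.const_mul _),
    integral_add (hi.const_mul _) (hj _).integrableOn, integral_const_mul, integral_const_mul] at h3
  rw [inter_comm, ← setIntegral_indicator measurableSet_closedBall] at hPΛ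
  have h4 := h.trans (mul_le_mul_of_nonneg_left (add_le_add (mul_le_mul_of_nonneg_left
    (h1.trans (add_le_add_right (h2 _ (by positivity)) _)) (by positivity))
    (h3.trans (add_le_add (add_le_add_right (h2 _ (by positivity)) _)
      (mul_le_mul_of_nonneg_left hPΛ (by positivity))))) (by positivity))
  rw [Measure.addHaar_real_closedBall _ _ (by positivity), finrank_euclideanSpace_fin,
    mul_pow 2 (τ ^ 4), ← pow_mul τ 4 n] at h4
  generalize ∫ y in Ω, Real.exp (f y / 4) ^ 9 / (1 + ε * Real.exp (f y / 4) ^ 9) *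
    tent (dist y x / τ ^ 4) ^ 18 = X at h4 ⊢
  generalize volume.real (ball (0 : E n) 1) = V at h4 ⊢
  generalize max Λ 0 = M at h4 ⊢
  have h5 : 0 < τ ^ (4 * n) / τ ^ 9 := by positivity
  generalize τ ^ (4 * n) = T at h4 h5 ⊢
  have e : c' * (162 / (τ ^ 4) ^ 2 * (τ ^ 8 * (1 / (326 * c')) * X +
      2 ^ n * T * V * (1 / (1 / (326 * c') * τ))) + (1 / (326 * c') * X +
        2 ^ n * T * V * (1 / (1 / (326 * c') * τ ^ 9)) + T / (1 / (326 * c') * τ ^ 9) * M)) =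
      X / 2 + ((652 * c' ^ 2 * (163 * (2 ^ n * V) + M) + 1) * T / τ ^ 9 - T / τ ^ 9) / 2 := by
    field_simp
    ring
  linarith

end

end Vale.Agent.P210
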