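import Vale.Agent.P210.Main
import Vale.Agent.P210.G.ConfC
import Vale.Agent.P210.G.Div
import Vale.Agent.P210.G.Ell
import Vale.Agent.P210.G.Key
import Vale.Agent.P210.G.MorD
import Vale.Agent.P210.G.Cmp

/-! P210 G/Main: assembly for a general background (owner helper28). -/

namespace Vale.Agent.P210

open Set Filter Topology Metric MeasureTheory
open scoped ContDiff

noncomputable section

theorem qf_smul {n : ℕ} (c : ℝ) (a : Matrix (Fin n) (Fin n) ℝ) (ξ η : Fin n → ℝ) :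
    qf (c • a) ξ η = c * qf a ξ η := by
  simp only [qf, Finset.mul_sum, Matrix.smul_apply, smul_eq_mul, mul_assoc]

theorem energy_of_scal {n : ℕ} (hn : 3 ≤ n) (L : ℝ) : ∃ c : ℝ, ∀ (Ω : Set (E n))
    (g : E n → Matrix (Fin n) (Fin n) ℝ) (f : E n → ℝ), IsOpen Ω →
    (∀ i j, ContDiffOn ℝ 3 (fun x => g x i j) Ω) → (∀ x ∈ Ω, Ell L (g x)) → ContDiffOn ℝ 2 f Ω →
    (∀ x ∈ Ω, 1 ≤ scal (cm f g) x) → ContinuousOn (fun x => max (scal g x) 0) Ω ∧
      ∀ ε : ℝ, 0 < ε → Energy Ω f (fun x => max (scal g x) 0) c ε := by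
  obtain ⟨K, K1, hK⟩ := ell_bound n L
  refine ⟨8 * n * K ^ 2, fun Ω g f hΩ hg hE hf hS => ?_⟩
  have sm : ∀ x ∈ Ω, Sm g x := fun x hx =>
    ⟨fun i j => (hg i j).contDiffAt (hΩ.mem_nhds hx),
      Filter.mem_of_superset (hΩ.mem_nhds hx) fun y hy => (hE y hy).sy, (hK _ (hE x hx)).1.ne'⟩
  have hc : ContinuousOn (fun x => max (scal g x) 0) Ω := fun x hx =>
    ((continuous_id.max continuous_const).continuousAt.comp (sm x hx).scal_cont).continuousWithinAt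
  refine ⟨hc, fun ε hε => key2 (a := fun y => √(g y).det • (g y)⁻¹) hn hΩ hf
    (fun i j x hx => ((sm x hx).dens_sm (hK _ (hE x hx)).1 i j).contDiffWithinAt)
    (fun x hx => (hK _ (hE x hx)).2.2.2.1) (by linarith)
    (fun x hx => (hK _ (hE x hx)).2.2.2.2) hc (fun x => le_max_right _ _) (fun x hx => ?_) hε⟩
  obtain ⟨d0, d1, d2, -, -⟩ := hK _ (hE x hx)
  have hf' := hf.contDiffAt (hΩ.mem_nhds hx)
  have h2 := hS x hx
  rw [scal_cm (sm x hx) hf'] at h2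
  rw [(sm x hx).div_eq d0 hf', qf_smul]
  have h3 := mul_le_mul_of_nonneg_left h2 (Real.exp_pos (2 * f x)).le
  have h4 : Real.exp (2 * f x) * Real.exp (-2 * f x) = 1 := by
    rw [← Real.exp_add]
    simp
  rw [← mul_assoc, h4, one_mul, mul_one] at h3
  have r0 : 0 ≤ √(g x).det := Real.sqrt_nonneg _
  have h5 := mul_le_mul_of_nonneg_left h3 r0
  have h6 : √(g x).det * scal g x ≤ K * max (scal g x) 0 :=
    (mul_le_mul_of_nonneg_left (le_max_left _ 0) r0).trans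
      (mul_le_mul_of_nonneg_right d2 (le_max_right _ _))
  have h7 := mul_le_mul_of_nonneg_right d1 (Real.exp_pos (2 * f x)).le
  rw [one_mul, mul_assoc] at h7
  refine h7.trans (mul_le_mul_of_nonneg_left ?_ (by linarith))
  linarith

theorem le3 : (3 : WithTop ℕ∞) ≤ ∞ := by
  rw [show (3 : WithTop ℕ∞) = ((3 : ℕ∞) : WithTop ℕ∞) from rfl]
  exact WithTop.coe_le_coe.2 le_top

theorem exp4 {n : ℕ} (f : E n → ℝ) :
    (fun x => Real.exp (f x)) = fun x => Real.exp (f x / 4) ^ 4 := funext fun x => by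
  rw [← Real.exp_nat_mul]
  congr 1
  push_cast
  ring

theorem main2 (n : ℕ) (hn : 3 ≤ n) (L Λ : ℝ) : ∃ C : ℝ, ∀ (Ω : Set (E n))
    (g : E n → Matrix (Fin n) (Fin n) ℝ) (f : E n → ℝ), IsOpen Ω → IsConnected Ω →
    (∀ i j, ContDiffOn ℝ ∞ (fun x => g x i j) Ω) → (∀ x ∈ Ω, (g x).IsSymm) →
    (∀ x ∈ Ω, ∀ v, ‖v‖ ≤ L * speed g x v ∧ speed g x v ≤ L * ‖v‖) →
    ∫⁻ x in Ω, ENNReal.ofReal (scal g x) ^ ((n : ℝ) / 2) ≤ ENNReal.ofReal Λ →
    ContDiffOn ℝ ∞ f Ω → Complete Ω (speed (cm f g)) → (∀ x ∈ Ω, 1 ≤ scal (cm f g) x) →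
    WidthLe Ω (rdist Ω (speed (cm f g))) (n - 2) C := by
  obtain ⟨m, rfl⟩ : ∃ m, n = m + 2 := ⟨n - 2, by omega⟩
  obtain ⟨c, hc⟩ := energy_of_scal hn L
  obtain ⟨A, hA, hMo⟩ := morrey2 hn c Λ
  obtain ⟨C, hC⟩ := core m (by omega) hA.le
  have L0 : 0 < |L| + 1 := by positivity
  have L1 : L ≤ |L| + 1 := by linarith [le_abs_self L]
  refine ⟨(|L| + 1) * C, fun Ω g f hΩ hcon hg hs hL hΛ hf hco hS => ?_⟩
  have hf2 : ContDiffOn ℝ 2 f Ω := hf.of_le P098.calc_le2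
  have hg3 : ∀ i j, ContDiffOn ℝ 3 (fun x => g x i j) Ω := fun i j =>
    (hg i j).of_le le3
  obtain ⟨e1, e2⟩ := hc Ω g f hΩ hg3
    (fun x hx => ⟨hs x hx, fun v => (hL x hx v).1, fun v => (hL x hx v).2⟩) hf2 hS
  have c1 := speed_cont (g := cm f g) (Ω := Ω) fun i j =>
    ((hf.continuousOn.const_mul 2).rexp).mul (hg i j).continuousOn
  have c2 := sp_cont hf.continuousOn.rexp
  have r1 := rdist_le c1 c2 L0 fun x hx v => by
    rw [speed_cm, sp, mul_left_comm]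
    exact mul_le_mul_of_nonneg_left ((hL x hx v).2.trans
      (mul_le_mul_of_nonneg_right L1 (norm_nonneg _))) (Real.exp_pos _).le
  have r2 := rdist_le c2 c1 L0 fun x hx v => by
    rw [speed_cm, sp, mul_left_comm]
    exact mul_le_mul_of_nonneg_left ((hL x hx v).1.trans
      (mul_le_mul_of_nonneg_right L1 (Real.sqrt_nonneg _))) (Real.exp_pos _).le
  have hD : Dom Ω fun x => Real.exp (f x) := ⟨hΩ, hf.continuousOn.rexp, fun x _ => Real.exp_pos _⟩
  have hP := proper_of_complete hD (hco.of_le L0 r1 r2)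
  obtain ⟨η, n1, n2, n3, n4⟩ := cutoff hD hP hcon.isPreconnected
  have h1 : Morrey Ω (fun x => Real.exp (f x / 4)) A := fun x τ hτ =>
    hMo Ω f _ 1 τ x η hΩ hf.continuousOn e1 (fun x => le_max_right _ _) zero_le_one hτ
      ((lintegral_mono_set inter_subset_right).trans (le_of_eq_of_le (lintegral_congr fun y => by
        rw [ENNReal.ofReal_max, ENNReal.ofReal_zero, max_eq_left zero_le]) hΛ))
      ⟨fun R => ⟨_, (n1 R).1, (n1 R).2, fun y _ hy => image_eq_zero_of_notMem_tsupport hy⟩, n2,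
        by simpa only [one_mul] using n3, n4⟩ e2
  refine WidthLe.of_le L0 r1 ?_
  rw [exp4] at hP ⊢
  exact hC Ω _ ⟨hΩ, (hf.continuousOn.div_const 4).rexp, fun x _ => Real.exp_pos _⟩ hP h1

end

end Vale.Agent.P210
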