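import Vale.Agent.P210.G.Defs
import Vale.Agent.P210.MorA

/-! P210 G/MorC: removing the intrinsic cutoff (helper names end with _MorC). Model: `abs_MorA`, `mor_a` in P210/MorA.lean. `ζ y = tent (dist y x / r)`, `ψ = ζ ^ 9 * η R` vanishes off the compact set `K ∩ closedBall x (2 r) ⊆ Ω` (`Cuts.supp`), so `tsupport ψ` lies in it.
`η R` itself need not be Lipschitz: get `Lip ψ` from `P098.lip_pt` (pointwise bounds on the compact set, locally zero off it) and, at every `y ∈ Ω`, `‖fderiv ψ y‖ ≤ ζ y ^ 9 * L exp (f y) + 9 ζ y ^ 8 / r` from `norm_fderiv_le_of_lip'` and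
`|ψ z - ψ y| ≤ ζ y ^ 9 |η z - η y| + |ζ z ^ 9 - ζ y ^ 9|`, `|a ^ 9 - b ^ 9| ≤ 9 max a b ^ 8 |a - b|` (`abs_pow_sub_pow_le`); where `η R = 1` near `y` the first term drops. `GG * exp f ^ 2 = FF`; `GG * S * ψ ^ 2 ≤ GG * S * ζ ^ 18`; dominated convergence as `R → ∞`. -/

namespace Vale.Agent.P210

open Set Filter Topology Metric MeasureTheory
open scoped ENNReal

noncomputable section

variable {n : ℕ} {Ω : Set (E n)} {f S : E n → ℝ}

theorem pt_MorC {η ζ : E n → ℝ} {y : E n} {a b : ℝ} (b0 : 0 ≤ b)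
    (hη : ∀ δ : ℝ, 0 < δ → ∀ᶠ z in 𝓝 y, |η z - η y| ≤ (a + δ) * dist z y)
    (hζ : ∀ y z, |ζ y - ζ z| ≤ b * ‖y - z‖) (e2 : ∀ y, 0 ≤ η y ∧ η y ≤ 1)
    (h1 : ∀ y, 0 ≤ ζ y ∧ ζ y ≤ 1) (δ : ℝ) (hδ : 0 < δ) : ∀ᶠ z in 𝓝 y,
      |ζ z ^ 9 * η z - ζ y ^ 9 * η y| ≤ (ζ y ^ 9 * a + 9 * ζ y * b + δ) * dist z y := by
  obtain ⟨d, d0, hd⟩ : ∃ d : ℝ, 0 < d ∧ d * (1 + 9 * b) = δ :=
    ⟨δ / (1 + 9 * b), by positivity, div_mul_cancel₀ _ (by positivity)⟩
  filter_upwards [hη d d0, (P098.lip_mk hζ).continuous.continuousAt.eventually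
    (gt_mem_nhds (lt_add_of_pos_right (ζ y) d0))] with z k1 k2
  have k3 := abs_pow_sub_pow_le (ζ z) (ζ y) 9
  rw [abs_of_nonneg (h1 z).1, abs_of_nonneg (h1 y).1] at k3
  have m0 : 0 ≤ max (ζ z) (ζ y) := le_max_of_le_left (h1 z).1
  have k4 : max (ζ z) (ζ y) ^ (9 - 1) ≤ ζ y + d :=
    (pow_le_of_le_one m0 (max_le (h1 z).2 (h1 y).2) (by norm_num)).trans
      (max_le k2.le (by linarith))
  have k5 := hζ z y
  rw [← dist_eq_norm] at k5
  have D0 : 0 ≤ dist z y := dist_nonneg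
  have k6 : |ζ z ^ 9 - ζ y ^ 9| ≤ b * dist z y * 9 * (ζ y + d) := k3.trans (by
    push_cast
    gcongr)
  have p0 := pow_nonneg (h1 y).1 9
  have p1 : ζ y ^ 9 ≤ 1 := pow_le_one₀ (h1 y).1 (h1 y).2
  have k7 := mul_le_mul_of_nonneg_left k1 p0
  have k8 := mul_le_of_le_one_left (mul_nonneg d0.le D0) p1
  have k9 := mul_le_of_le_one_right (abs_nonneg (ζ z ^ 9 - ζ y ^ 9)) (e2 z).2
  rw [show ζ z ^ 9 * η z - ζ y ^ 9 * η y = ζ y ^ 9 * (η z - η y) + (ζ z ^ 9 - ζ y ^ 9) * η z by ring,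
    ← hd]
  refine (abs_add_le _ _).trans ?_
  rw [abs_mul, abs_mul, abs_of_nonneg p0, abs_of_nonneg (e2 z).1]
  linarith

theorem der_MorC {η ζ : E n → ℝ} {y : E n} {a b : ℝ} (a0 : 0 ≤ a) (b0 : 0 ≤ b)
    (hη : ∀ δ : ℝ, 0 < δ → ∀ᶠ z in 𝓝 y, |η z - η y| ≤ (a + δ) * dist z y)
    (hζ : ∀ y z, |ζ y - ζ z| ≤ b * ‖y - z‖) (e2 : ∀ y, 0 ≤ η y ∧ η y ≤ 1)
    (h1 : ∀ y, 0 ≤ ζ y ∧ ζ y ≤ 1) :
    ‖fderiv ℝ (fun z => ζ z ^ 9 * η z) y‖ ^ 2 ≤ 2 * (a ^ 2 * ζ y ^ 18) + 162 * b ^ 2 * ζ y ^ 2 := by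
  have := (h1 y).1
  have h4 : ‖fderiv ℝ (fun z => ζ z ^ 9 * η z) y‖ ≤ ζ y ^ 9 * a + 9 * ζ y * b :=
    le_of_forall_pos_le_add fun δ hδ => norm_fderiv_le_of_lip' ℝ (by positivity)
      ((pt_MorC b0 hη hζ e2 h1 δ hδ).mono fun z hz => by rwa [dist_eq_norm] at hz)
  refine (pow_le_pow_left₀ (norm_nonneg _) h4 2).trans ?_
  nlinarith [sq_nonneg (ζ y ^ 9 * a - 9 * ζ y * b)]

theorem abs_MorC (hΩ : IsOpen Ω) {F G w ζ : E n → ℝ} {η : ℕ → E n → ℝ} {B ρ b c k : ℝ} {x : E n}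
    (hF : ContinuousOn F Ω) (hG : ContinuousOn G Ω) (hw : ContinuousOn w Ω) (w0 : ∀ y, 0 ≤ w y)
    (hS : ContinuousOn S Ω) (S0 : ∀ x, 0 ≤ S x) (hi : IntegrableOn S (closedBall x ρ ∩ Ω))
    (F0 : ∀ y, 0 ≤ F y ∧ F y ≤ B) (G0 : ∀ y, 0 ≤ G y ∧ G y ≤ B) (e : ∀ y, G y * w y ^ 2 = k * F y)
    (b0 : 0 ≤ b) (hζ : ∀ y z, |ζ y - ζ z| ≤ b * ‖y - z‖) (h1 : ∀ y, 0 ≤ ζ y ∧ ζ y ≤ 1)
    (h0 : ∀ y ∉ closedBall x ρ, ζ y = 0) (c0 : 0 ≤ c)
    (hk : ∀ ψ, P098.Lip ψ → HasCompactSupport ψ → tsupport ψ ⊆ Ω → ∫ y, F y * ψ y ^ 2 ≤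
      c * ((∫ y, G y * ‖fderiv ℝ ψ y‖ ^ 2) + ∫ y, G y * S y * ψ y ^ 2))
    (hη : Cuts Ω w (closedBall x ρ) η) : ∫ y in Ω, F y * ζ y ^ 18 ≤
      c * (162 * b ^ 2 * (∫ y in Ω, G y * ζ y ^ 2) + ∫ y in Ω, G y * S y * ζ y ^ 18) := by
  obtain ⟨e1, e2, e3, e4⟩ := hη
  have lζ : Continuous ζ := (P098.lip_mk hζ).continuous
  have s0 : ∀ R, HasCompactSupport (fun y => ζ y ^ 9 * η R y) ∧
      tsupport (fun y => ζ y ^ 9 * η R y) ⊆ Ω := fun R => by
    obtain ⟨K, k1, k2, k3⟩ := e1 R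
    have z : ∀ y ∉ K, ζ y ^ 9 * η R y = 0 := fun y hy => by
      by_cases h : y ∈ closedBall x ρ
      · rw [k3 y h hy, mul_zero]
      · rw [h0 y h, zero_pow (by norm_num), zero_mul]
    exact ⟨.intro k1 z, (closure_minimal (Function.support_subset_iff'.2 z) k1.isClosed).trans k2⟩
  have lψ : ∀ R, P098.Lip fun y => ζ y ^ 9 * η R y := fun R =>
    lip_MorA (w := fun y => ζ y ^ 9 * w y + 9 * ζ y * b) (((lζ.pow 9).continuousOn.mul hw).add
      (by fun_prop)) (s0 R).1 (s0 R).2 fun y hy => pt_MorC b0 (e3 R y hy) hζ (e2 R) h1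
  have i1 := int_MorA hΩ hF F0 lζ h1 h0 (k := 18) (by norm_num)
  have i2 := int_MorA hΩ hG G0 lζ h1 h0 (k := 2) (by norm_num)
  have q0 : ∀ y, 0 ≤ G y * S y := fun y => mul_nonneg (G0 y).1 (S0 y)
  have i3 : Integrable (fun y => G y * S y * ζ y ^ 18) (volume.restrict Ω) := by
    have hI : Integrable ((closedBall x ρ).indicator fun y => B * S y) (volume.restrict Ω) := by
      rw [integrable_indicator_iff measurableSet_closedBall, IntegrableOn,
        Measure.restrict_restrict measurableSet_closedBall]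
      exact hi.const_mul B
    refine hI.mono' (((hG.mul hS).mul (lζ.pow 18).continuousOn).aestronglyMeasurable
      hΩ.measurableSet) (Eventually.of_forall fun y => ?_)
    by_cases hy : y ∈ closedBall x ρ
    · rw [indicator_of_mem hy, Real.norm_of_nonneg (mul_nonneg (q0 y) (pow_nonneg (h1 y).1 _))]
      exact (mul_le_of_le_one_right (q0 y) (pow_le_one₀ (h1 y).1 (h1 y).2)).trans
        (mul_le_mul_of_nonneg_right (G0 y).2 (S0 y))
    · rw [indicator_of_notMem hy, h0 y hy, zero_pow (by norm_num), mul_zero, norm_zero]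
  have p1 : ∀ y, 0 ≤ F y * ζ y ^ 18 := fun y => mul_nonneg (F0 y).1 (pow_nonneg (h1 y).1 _)
  have mO : ∀ R, MeasurableSet {y | ∀ᶠ z in 𝓝 y, η R z = 1}ᶜ := fun R =>
    isOpen_setOfPred_eventually_nhds.measurableSet.compl
  have t1 : Tendsto (fun R => ∫ y in Ω, F y * (ζ y ^ 9 * η R y) ^ 2) atTop
      (𝓝 (∫ y in Ω, F y * ζ y ^ 18)) := by
    refine tendsto_integral_of_dominated_convergence _ (fun R => (hF.mul ((lψ R).continuous.pow
      2).continuousOn).aestronglyMeasurable hΩ.measurableSet) i1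
      (fun R => Eventually.of_forall fun y => ?_)
      ((ae_restrict_mem hΩ.measurableSet).mono fun y hy => tendsto_const_nhds.congr' ?_)
    · rw [Real.norm_of_nonneg (mul_nonneg (F0 y).1 (sq_nonneg _)),
        show F y * (ζ y ^ 9 * η R y) ^ 2 = F y * ζ y ^ 18 * η R y ^ 2 by ring]
      exact mul_le_of_le_one_right (p1 y) (pow_le_one₀ (e2 R y).1 (e2 R y).2)
    · filter_upwards [e4 y hy] with R hR
      rw [hR.self_of_nhds]
      ring
  have t2 : Tendsto (fun R => ∫ y in Ω, {y | ∀ᶠ z in 𝓝 y, η R z = 1}ᶜ.indicator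
      (fun y => F y * ζ y ^ 18) y) atTop (𝓝 (∫ _ in Ω, 0)) := by
    refine tendsto_integral_of_dominated_convergence _ (fun R => (i1.indicator (mO R)).1) i1
      (fun R => Eventually.of_forall fun y => (norm_indicator_le_norm_self _ _).trans_eq
        (Real.norm_of_nonneg (p1 y)))
      ((ae_restrict_mem hΩ.measurableSet).mono fun y hy => tendsto_const_nhds.congr' ?_)
    filter_upwards [e4 y hy] with R hR
    exact (indicator_of_notMem (not_not.2 hR) _).symm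
  have t3 := (((t2.const_mul (2 * k)).add_const (162 * b ^ 2 * ∫ y in Ω, G y * ζ y ^ 2)).add_const
    (∫ y in Ω, G y * S y * ζ y ^ 18)).const_mul c
  rw [integral_zero, mul_zero, zero_add] at t3
  refine le_of_tendsto_of_tendsto' t1 t3 fun R => ?_
  obtain ⟨s1, s2⟩ := s0 R
  have s3 := hk _ (lψ R) s1 s2
  rw [← setIntegral_eq_integral_of_forall_compl_eq_zero (s := Ω) fun y hy => by
      rw [image_eq_zero_of_notMem_tsupport fun k => hy (s2 k)]; simp,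
    ← setIntegral_eq_integral_of_forall_compl_eq_zero (s := Ω)
      (f := fun y => G y * ‖fderiv ℝ (fun y => ζ y ^ 9 * η R y) y‖ ^ 2) fun y hy => by
      rw [fderiv_of_notMem_tsupport ℝ fun k => hy (s2 k)]; simp,
    ← setIntegral_eq_integral_of_forall_compl_eq_zero (s := Ω)
      (f := fun y => G y * S y * (ζ y ^ 9 * η R y) ^ 2) fun y hy => by
      rw [image_eq_zero_of_notMem_tsupport fun k => hy (s2 k)]; simp] at s3
  refine s3.trans (mul_le_mul_of_nonneg_left (add_le_add ?_ ?_) c0)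
  · have j1 := (i1.indicator (mO R)).const_mul (2 * k)
    have j2 := i2.const_mul (162 * b ^ 2)
    rw [← integral_const_mul, ← integral_const_mul, ← integral_add j1 j2]
    refine integral_mono_of_nonneg (Eventually.of_forall fun y =>
      mul_nonneg (G0 y).1 (sq_nonneg _)) (j1.add j2) ?_
    filter_upwards [ae_restrict_mem hΩ.measurableSet] with y hy
    by_cases hO : ∀ᶠ z in 𝓝 y, η R z = 1
    · have d5 := mul_le_mul_of_nonneg_left (der_MorC le_rfl b0 (fun δ hδ => hO.mono fun z hz => by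
        rw [hz, hO.self_of_nhds, sub_self, abs_zero]; positivity) hζ (e2 R) h1) (G0 y).1
      rw [indicator_of_notMem (not_not.2 hO)]
      linarith
    · have d5 := mul_le_mul_of_nonneg_left (der_MorC (w0 y) b0 (e3 R y hy) hζ (e2 R) h1) (G0 y).1
      have d6 := congrArg (· * ζ y ^ 18) (e y)
      rw [indicator_of_mem (s := {y | ∀ᶠ z in 𝓝 y, η R z = 1}ᶜ) hO]
      linarith
  · refine integral_mono_of_nonneg (Eventually.of_forall fun y =>
      mul_nonneg (q0 y) (sq_nonneg _)) i3 (Eventually.of_forall fun y => ?_)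
    show G y * S y * (ζ y ^ 9 * η R y) ^ 2 ≤ G y * S y * ζ y ^ 18
    rw [show G y * S y * (ζ y ^ 9 * η R y) ^ 2 = G y * S y * ζ y ^ 18 * η R y ^ 2 by ring]
    exact mul_le_of_le_one_right (mul_nonneg (q0 y) (pow_nonneg (h1 y).1 _))
      (pow_le_one₀ (e2 R y).1 (e2 R y).2)

theorem mor_c (hΩ : IsOpen Ω) (hf : ContinuousOn f Ω) (hS : ContinuousOn S Ω) (S0 : ∀ x, 0 ≤ S x)
    {c ε L r : ℝ} (hc : 0 ≤ c) (hε : 0 < ε) (hL : 0 ≤ L) (hr : 0 < r) {x : E n}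
    (hi : IntegrableOn S (closedBall x (2 * r) ∩ Ω)) {η : ℕ → E n → ℝ}
    (hη : Cuts Ω (fun y => L * Real.exp (f y)) (closedBall x (2 * r)) η) (hE : Energy Ω f S c ε) :
    ∫ y in Ω, FF ε f y * tent (dist y x / r) ^ 18 ≤
      c * (162 / r ^ 2 * (∫ y in Ω, GG ε f y * tent (dist y x / r) ^ 2) +
        ∫ y in Ω, GG ε f y * S y * tent (dist y x / r) ^ 18) := by
  have hv : ContinuousOn (fun y => Real.exp (f y / 4)) Ω := (hf.div_const 4).rexp
  have hd : ∀ y, 0 < 1 + ε * Real.exp (f y / 4) ^ 9 := fun y => by positivity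
  have hD := (continuousOn_const (c := (1 : ℝ))).add ((hv.pow 9).const_mul ε)
  have i1 : ε⁻¹ * ε = 1 := inv_mul_cancel₀ hε.ne'
  have i2 : 0 < ε⁻¹ := inv_pos.2 hε
  refine (abs_MorC hΩ (B := 1 + ε⁻¹) (b := r⁻¹) (k := L ^ 2) (F := FF ε f) (G := GG ε f)
    (ζ := fun y => tent (dist y x / r)) ((hv.pow 9).div hD fun y _ => (hd y).ne')
    (hv.div hD fun y _ => (hd y).ne') (hf.rexp.const_mul L) (fun y => by positivity) hS S0 hi
    (fun y => ⟨by rw [FF]; positivity, ?_⟩) (fun y => ⟨by rw [GG]; positivity, ?_⟩) (fun y => ?_)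
    (by positivity) (fun y z => (tent_MorA _ _).trans ?_) (fun y => tent_mem _) (fun y hy => ?_) hc
    hE hη).trans_eq (by ring)
  · have h1 : 0 < Real.exp (f y / 4) ^ 9 := by positivity
    refine (div_le_iff₀ (hd y)).2 ?_
    nlinarith [mul_pos hε h1]
  · have h0 := Real.exp_pos (f y / 4)
    have h1 : 0 < Real.exp (f y / 4) ^ 9 := by positivity
    have h2 : Real.exp (f y / 4) ≤ 1 + Real.exp (f y / 4) ^ 9 := by
      rcases le_total (Real.exp (f y / 4)) 1 with h | h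
      · linarith
      · linarith [le_self_pow₀ h (by norm_num : 9 ≠ 0)]
    refine (div_le_iff₀ (hd y)).2 ?_
    nlinarith [mul_pos hε h1]
  · have h1 : Real.exp (f y) = Real.exp (f y / 4) ^ 4 := by
      rw [← Real.exp_nat_mul]
      congr 1
      push_cast
      ring
    rw [FF, GG, h1]
    ring
  · rw [← sub_div, abs_div, abs_of_pos hr, div_eq_inv_mul, ← dist_eq_norm]
    exact mul_le_mul_of_nonneg_left (abs_dist_sub_le _ _ _) (by positivity)
  · have h1 : 2 < dist y x / r := (lt_div_iff₀ hr).2 (not_le.1 hy)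
    exact max_eq_left (min_le_of_right_le (by linarith))

end

end Vale.Agent.P210
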